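import Crest.Agent.R247.HK.Rep
import Crest.Agent.R242.D5

/-! # Row 247, block HK: the heat kernel (helper56) -/

set_option autoImplicit false
set_option linter.unusedSectionVars false
set_option linter.unusedVariables false
open MeasureTheory Filter Set Metric Matrix
open scoped ENNReal NNReal Topology ContDiff InnerProductSpace
open Crest.GeometryTopology.CoordMetric Crest.Agent.R242

noncomputable section
namespace Crest.Agent.R247
universe u

variable {n : ℕ} {M : Type u} [MetricSpace M] [MeasurableSpace M] [BorelSpace M] [ProperSpace M]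
  {g : Geo n M}

/-- The semigroup with its evaluation functionals. -/
structure HkEv (g : Geo n M) where
  Φ : ClosedForm (Lp ℝ 2 g.m)
  S : SG Φ
  k : ℝ → M → Lp ℝ 2 g.m
  fr : g.Fr Φ
  ev : ∀ t, 0 < t → ∀ f, g.S (fun x => ⟪k t x, f⟫_ℝ) ∧ S.heat t f =ᵐ[g.m] fun x => ⟪k t x, f⟫_ℝ

theorem Geo.exists_hkEv (g : Geo n M) : Nonempty (HkEv g) := by
  obtain ⟨Φ, h⟩ := g.exists_fr
  obtain ⟨k, hk⟩ := h.exists_ev Φ.sg
  exact ⟨⟨Φ, Φ.sg, k, h, hk⟩⟩

namespace HkEv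
variable (e : HkEv g)

/-- The smooth representative of `heat t f`. -/
def T (t : ℝ) (f : Lp ℝ 2 g.m) (x : M) : ℝ := ⟪e.k t x, f⟫_ℝ

theorem T_S {t : ℝ} (ht : 0 < t) (f : Lp ℝ 2 g.m) : g.S (e.T t f) := (e.ev t ht f).1

theorem T_ae {t : ℝ} (ht : 0 < t) (f : Lp ℝ 2 g.m) : e.S.heat t f =ᵐ[g.m] e.T t f := (e.ev t ht f).2

theorem T_congr {s t : ℝ} (hs : 0 < s) (ht : 0 < t) {f f' : Lp ℝ 2 g.m}
    (h : e.S.heat s f = e.S.heat t f') : e.T s f = e.T t f' :=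
  haveI := g.open_pos
  ((g.S_cont (e.T_S hs f)).ae_eq_iff_eq g.m (g.S_cont (e.T_S ht f'))).1
    ((e.T_ae hs f).symm.trans (h ▸ e.T_ae ht f'))

theorem T_add {s t : ℝ} (hs : 0 < s) (ht : 0 ≤ t) (f : Lp ℝ 2 g.m) :
    e.T (s + t) f = e.T s (e.S.heat t f) :=
  e.T_congr (by linarith) hs (e.S.heat_add s t f hs.le ht)

theorem k_add {s t : ℝ} (hs : 0 < s) (ht : 0 ≤ t) (x : M) :
    e.k (s + t) x = e.S.heat t (e.k s x) :=
  ext_inner_right ℝ fun f => by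
    rw [e.S.heat_symm t _ _ ht]; exact congrFun (e.T_add hs ht f) x

theorem Δ_T {s t : ℝ} (hs : 0 < s) (ht : 0 < t) (f : Lp ℝ 2 g.m) :
    g.Δ (e.T (s + t) f) = e.T s (e.S.lap t f) :=
  e.fr.lap_eq (e.S.heat_gen (s + t) f (by linarith)) (e.T_S (by linarith) f)
    (g.S_cont (e.T_S hs _)) (e.T_ae (by linarith) f)
    (by rw [add_comm, e.S.lap_add ht hs.le]; exact e.T_ae hs _)

theorem Δ_ae {t : ℝ} (ht : 0 < t) (f : Lp ℝ 2 g.m) : e.S.lap t f =ᵐ[g.m] g.Δ (e.T t f) := by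
  have h1 := e.Δ_T (half_pos ht) (half_pos ht) f
  have h2 := e.S.lap_add (half_pos ht) (half_pos ht).le f
  rw [add_halves] at h1 h2
  rw [h1, h2]
  exact e.T_ae (half_pos ht) _

theorem fam {F : ℝ → M → ℝ} {s t : ℝ} (hs : s < t) {c : Lp ℝ 2 g.m}
    (hF : ∀ r, s < r → F r = e.T (r - s) c) :
    (∀ x, ∀ y ∈ (g.ch x).target,
      ContDiffAt ℝ ∞ (fun p : ℝ × E n => F p.1 ((g.ch x).symm p.2)) (t, y)) ∧
      ∀ z, dt F t z = g.Δ (F t) z := by
  obtain ⟨a, ha⟩ : ∃ a, a = (t - s) / 2 := ⟨_, rfl⟩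
  have a0 : 0 < a := by linarith
  have a1 : 0 < t - (s + a) := by linarith
  have h1 : ∀ᶠ r in 𝓝 t, F r = e.T a (e.S.heat (r - (s + a)) c) := by
    filter_upwards [Ioi_mem_nhds (show s + a < t by linarith)] with r hr
    have hr' : s + a < r := hr
    rw [hF r (by linarith), ← e.T_add a0 (by linarith)]
    congr 1; ring
  refine ⟨fun x y hy => ?_, fun z => ?_⟩
  · have h2 : ContDiffAt ℝ ∞ (fun y => e.k a ((g.ch x).symm y)) y :=
      (hk_weak_smooth (g.ch x).open_target fun f => g.S_ch (e.T_S a0 f) x).contDiffAt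
        ((g.ch x).open_target.mem_nhds hy)
    have h3 : ContDiffAt ℝ ∞ (fun r => e.S.heat (r - (s + a)) c) t :=
      ContDiffAt.comp (g := fun r => e.S.heat r c) t
        ((hk_heat_smooth e.S c).contDiffAt (Ioi_mem_nhds a1)) (contDiffAt_id.sub contDiffAt_const)
    refine (ContDiffAt.inner ℝ (ContDiffAt.snd' (x := t) h2) (ContDiffAt.fst' (y := y) h3)).congr_of_eventuallyEq ?_
    filter_upwards [continuousAt_fst (p := (t, y)) h1] with p hp
    exact congrFun hp _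
  · have h2 := (hasDerivAt_const t (e.k a z)).inner ℝ
      ((e.S.heat_deriv (t - (s + a)) c a1).comp_sub_const t (s + a))
    rw [inner_zero_left, add_zero] at h2
    have h3 := e.Δ_T a0 a1 c
    rw [show a + (t - (s + a)) = t - s by ring, ← hF t hs] at h3
    rw [h3]
    exact (h2.congr_of_eventuallyEq (h1.mono fun r hr => congrFun hr z)).deriv

theorem fam_Sm {F : ℝ → M → ℝ}
    (hF : ∀ t, 0 < t → ∃ s < t, ∃ c, ∀ r, s < r → F r = e.T (r - s) c) : g.Sm (Ioi 0) F :=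
  g.Sm_of_ch fun x p hp => by
    obtain ⟨s, hs, c, hc⟩ := hF p.1 hp.1
    exact ((e.fam hs hc).1 x p.2 hp.2).contDiffWithinAt

/-- The heat kernel. -/
def H (t : ℝ) (x : M) : M → ℝ := e.T (t / 2) (e.k (t / 2) x)

theorem H_ae {t : ℝ} (ht : 0 < t) (x : M) : e.k t x =ᵐ[g.m] e.H t x := by
  have := e.T_ae (half_pos ht) (e.k (t / 2) x)
  rwa [← e.k_add (half_pos ht) (half_pos ht).le, add_halves] at this

theorem H_eq {s t : ℝ} (hs : 0 < s) (ht : s < t) (x : M) : e.H t x = e.T (t - s) (e.k s x) :=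
  e.T_congr (by linarith) (by linarith) (by
    rw [← e.k_add (by linarith) (by linarith), ← e.k_add hs (by linarith)]; congr 1; ring)

theorem P_eq {t : ℝ} (ht : 0 < t) {F : Lp ℝ 2 g.m} {f : M → ℝ} (h : F =ᵐ[g.m] f) :
    kerP g.m e.H t f = e.T t F :=
  funext fun x => (hk_inner (e.H_ae ht x) h).symm

theorem P_fam {F : Lp ℝ 2 g.m} {f : M → ℝ} (h : F =ᵐ[g.m] f) (r : ℝ) (hr : 0 < r) :
    kerP g.m e.H r f = e.T (r - 0) F := by rw [sub_zero, e.P_eq hr h]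

theorem H_set {t : ℝ} (ht : 0 < t) (x : M) {A : Set M} (hA : MeasurableSet A) (h : g.m A ≠ ⊤) :
    0 ≤ ∫ y in A, e.H t x y ∂g.m ∧ ∫ y in A, e.H t x y ∂g.m ≤ 1 := by
  have := g.open_pos
  have h1 := e.fr.markov e.S ht.le (f := indicatorConstLp 2 hA h (1 : ℝ)) (by
    filter_upwards [indicatorConstLp_coeFn (p := 2) (hs := hA) (hμs := h) (c := (1 : ℝ))] with z hz
    rw [hz]
    by_cases hz' : z ∈ A <;> simp [hz'])
  have h2 : ∀ᵐ z ∂g.m, e.T t (indicatorConstLp 2 hA h (1 : ℝ)) z ∈ Icc (0 : ℝ) 1 := by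
    filter_upwards [h1, e.T_ae ht (indicatorConstLp 2 hA h (1 : ℝ))] with z h3 h4
    rwa [← h4]
  have h3 := (isClosed_Icc.preimage (g.S_cont (e.T_S ht _))).closure_subset
    (Measure.dense_of_ae h2 x)
  rw [mem_preimage, T, real_inner_comm, L2.inner_indicatorConstLp_one,
    integral_congr_ae (ae_restrict_of_ae (e.H_ae ht x))] at h3
  exact h3

theorem H_L2 {t : ℝ} (ht : 0 < t) (x : M) : MemLp (e.H t x) 2 g.m :=
  (Lp.memLp _).ae_eq (e.H_ae ht x)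

theorem H_nonneg {t : ℝ} (ht : 0 < t) (x y : M) : 0 ≤ e.H t x y := by
  have := g.open_pos
  have := g.fin_cpt
  have h1 : 0 ≤ᵐ[g.m] e.H t x := ae_nonneg_of_forall_setIntegral_nonneg_of_sigmaFinite
    (fun A hA h => by
      have : IsFiniteMeasure (g.m.restrict A) := isFiniteMeasure_restrict.2 h.ne
      exact ((e.H_L2 ht x).restrict A).integrable one_le_two)
    fun A hA h => (e.H_set ht x hA h.ne).1
  exact (isClosed_le continuous_const (g.S_cont (e.T_S (half_pos ht) _))).closure_subset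
    (Measure.dense_of_ae h1 y)

theorem H_int {t : ℝ} (ht : 0 < t) (x : M) :
    Integrable (e.H t x) g.m ∧ ∫ y, e.H t x y ∂g.m ≤ 1 := by
  have := g.fin_cpt
  have hc : AECover g.m atTop fun r : ℝ => closedBall x r := aecover_closedBall tendsto_id
  have hb : ∀ᶠ r : ℝ in atTop, ∫ y in closedBall x r, e.H t x y ∂g.m ≤ 1 :=
    Eventually.of_forall fun r =>
      (e.H_set ht x measurableSet_closedBall (isCompact_closedBall x r).measure_lt_top.ne).2
  have h1 := hc.integrable_of_integral_bounded_of_nonneg_ae 1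
    (fun r => (g.S_cont (e.T_S (half_pos ht) _)).continuousOn.integrableOn_compact
      (isCompact_closedBall x r)) (Eventually.of_forall (e.H_nonneg ht x)) hb
  exact ⟨h1, le_of_tendsto (hc.integral_tendsto_of_countably_generated h1) hb⟩

theorem P_grad {t : ℝ} (ht : 0 < t) (F : Lp ℝ 2 g.m) :
    Integrable (g.Γ (e.T t F) (e.T t F)) g.m ∧
      ∫ x, g.Γ (e.T t F) (e.T t F) x ∂g.m ≤ ‖F‖ ^ 2 / (2 * t) := by
  have h1 := (e.fr.energy (e.S.heat_gen t F ht) (e.T_S ht F) (e.T_ae ht F) (e.Δ_ae ht F)).trans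
    (ENNReal.ofReal_le_ofReal (e.S.E_heat_le_norm F ht))
  have h0 : 0 ≤ᵐ[g.m] g.Γ (e.T t F) (e.T t F) := Eventually.of_forall fun x => g.Γ_nonneg _ x
  have h2 : Integrable (g.Γ (e.T t F) (e.T t F)) g.m :=
    ⟨(g.S_cont (g.S_Γ (e.T_S ht F) (e.T_S ht F))).aestronglyMeasurable,
      (hasFiniteIntegral_iff_ofReal h0).2 (h1.trans_lt ENNReal.ofReal_lt_top)⟩
  rw [← ofReal_integral_eq_lintegral_ofReal h2 h0, ENNReal.ofReal_le_ofReal_iff (by positivity)] at h1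
  exact ⟨h2, h1⟩

theorem Δ_io {t : ℝ} (ht : 0 < t) (f : g.D0) : g.Δ (e.T t (g.io f)) = e.T t (g.io (g.lapD f)) :=
  e.fr.lap_eq (e.S.gen_heat (e.fr.gen f) ht.le) (e.T_S ht _) (g.S_cont (e.T_S ht _)) (e.T_ae ht _)
    (e.T_ae ht _)

theorem sub_ae {t : ℝ} (ht : 0 < t) {F : Lp ℝ 2 g.m} {f : M → ℝ} (h : F =ᵐ[g.m] f) :
    (e.S.heat t F - F : Lp ℝ 2 g.m) =ᵐ[g.m] fun y => e.T t F y - f y :=
  (Lp.coeFn_sub _ _).trans ((e.T_ae ht F).sub h)

theorem P_zero {F : Lp ℝ 2 g.m} {f : M → ℝ} (h : F =ᵐ[g.m] f) :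
    Tendsto (fun t => ∫ x, (kerP g.m e.H t f x - f x) ^ 2 ∂g.m) (𝓝[>] 0) (𝓝 0) := by
  have h1 : Tendsto (fun t => e.S.heat t F) (𝓝[>] 0) (𝓝 F) := by
    have := ((e.S.heat_cont F) 0 self_mem_Ici).tendsto.mono_left (nhdsWithin_mono _ Ioi_subset_Ici_self)
    rwa [e.S.heat_zero] at this
  have h2 := (tendsto_iff_norm_sub_tendsto_zero.1 h1).pow 2
  rw [zero_pow two_ne_zero] at h2
  refine h2.congr' ?_
  filter_upwards [self_mem_nhdsWithin] with t ht
  rw [e.P_eq ht h, hk_norm (e.sub_ae ht h)]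

theorem P_zero_grad (f : g.D0) :
    Tendsto (fun t => ∫⁻ x, ENNReal.ofReal (g.Γ (fun y => kerP g.m e.H t f y - (f : M → ℝ) y)
      (fun y => kerP g.m e.H t f y - (f : M → ℝ) y) x) ∂g.m) (𝓝[>] 0) (𝓝 0) := by
  have h1 := ENNReal.tendsto_ofReal ((e.S.E_cont (e.fr.gen f).1 le_rfl).mono_left
    (nhdsWithin_mono _ Ioi_subset_Ici_self))
  rw [ENNReal.ofReal_zero, e.S.heat_zero] at h1
  refine tendsto_of_tendsto_of_tendsto_of_le_of_le' tendsto_const_nhds h1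
    (Eventually.of_forall fun _ => zero_le) ?_
  filter_upwards [self_mem_nhdsWithin] with t ht
  rw [e.P_eq ht (g.io_ae f)]
  refine e.fr.energy ((e.S.gen_heat (e.fr.gen f) (le_of_lt ht)).sub (e.fr.gen f))
    (g.S_sub (e.T_S ht _) f.2.1) (e.sub_ae ht (g.io_ae f))
    ((e.sub_ae ht (g.io_ae _)).trans (Eventually.of_forall fun y => ?_))
  rw [g.Δ_sub (e.T_S ht _) f.2.1, e.Δ_io ht]
  rfl

/-- The heat structure. -/
def hs : HS n M where
  toGeo := g
  H := e.H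
  H_symm := fun ht x y => real_inner_comm _ _
  H_nonneg := e.H_nonneg
  H_Sm := fun x => e.fam_Sm fun t ht =>
    ⟨t / 2, half_lt_self ht, e.k (t / 2) x, fun r hr => e.H_eq (half_pos ht) hr x⟩
  H_heat := fun {t} ht x => (e.fam (half_lt_self ht) fun r hr => e.H_eq (half_pos ht) hr x).2
  H_L2 := e.H_L2
  H_int := e.H_int
  H_add := fun {s t} hs ht x y => by
    rw [e.H_eq hs (lt_add_of_pos_right s ht), add_sub_cancel_left, T, real_inner_comm]
    exact hk_inner (e.H_ae hs x) (e.H_ae ht y)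
  P_Sm := fun {f} hf => e.fam_Sm fun t ht => ⟨0, ht, hf.toLp, e.P_fam hf.coeFn_toLp⟩
  P_heat := fun {f t} hf ht => (e.fam ht (e.P_fam hf.coeFn_toLp)).2
  P_L2 := fun {f t} hf ht => by
    rw [e.P_eq ht hf.coeFn_toLp, ← hk_norm (e.T_ae ht _), ← hk_norm hf.coeFn_toLp]
    exact ⟨(Lp.memLp _).ae_eq (e.T_ae ht _),
      pow_le_pow_left₀ (norm_nonneg _) (e.S.heat_norm t _ ht.le) 2⟩
  P_lap_L2 := fun {f t} hf ht => by
    rw [e.P_eq ht hf.coeFn_toLp]
    exact (Lp.memLp _).ae_eq (e.Δ_ae ht _)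
  P_lap := fun {f s t} hf hs ht => by
    rw [e.P_eq (add_pos hs ht) hf.coeFn_toLp, e.P_eq ht hf.coeFn_toLp, e.P_eq hs (e.Δ_ae ht _),
      e.Δ_T hs ht]
  P_lap_c := fun {f t} hf hc ht => by
    rw [e.P_eq ht (g.io_ae ⟨f, hf, hc⟩), e.Δ_io ht]
    exact (e.P_eq ht (g.io_ae _)).symm
  P_grad := fun {f t} hf ht => by
    rw [e.P_eq ht hf.coeFn_toLp, ← hk_norm hf.coeFn_toLp]
    exact e.P_grad ht _
  P_zero := fun {f} hf => e.P_zero hf.coeFn_toLp
  P_zero_grad := fun {f} hf hc => e.P_zero_grad ⟨f, hf, hc⟩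

end HkEv

end Crest.Agent.R247
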