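import Crest.Agent.R247.Defs
import Crest.Agent.R242.D7

/-! # Row 247, block HK: abstract Hilbert space lemmas (helper56) -/

set_option autoImplicit false
set_option linter.unusedSectionVars false
set_option linter.unusedVariables false
open MeasureTheory Filter Set Metric
open scoped ENNReal NNReal Topology ContDiff InnerProductSpace
open Crest.GeometryTopology.CoordMetric Crest.Agent.R242

noncomputable section
namespace Crest.Agent.R247

variable {H : Type*} [NormedAddCommGroup H] [InnerProductSpace ℝ H] [CompleteSpace H]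

open UniformSpace in
theorem hk_fried_aux {D : Type*} [SeminormedAddCommGroup D] [InnerProductSpace ℝ D]
    (ι A : D →ₗ[ℝ] H) (hd : DenseRange ι) (hs : ∀ u v, ⟪A u, ι v⟫_ℝ = ⟪ι u, A v⟫_ℝ)
    (hp : ∀ u, ⟪A u, ι u⟫_ℝ ≤ 0) (hin : ∀ u v : D, ⟪u, v⟫_ℝ = ⟪ι u, ι v⟫_ℝ - ⟪A u, ι v⟫_ℝ) :
    ∃ Φ : ClosedForm H, (∀ u, Φ.IsGen (ι u) (A u)) ∧ ∀ x ∈ Φ.dom, ∃ f : ℕ → D,
      Tendsto (fun j => ι (f j)) atTop (𝓝 x) ∧
        Tendsto (fun j => Φ.E (ι (f j) - x) (ι (f j) - x)) atTop (𝓝 0) := by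
  have hb : ∀ u : D, ‖ι u‖ ≤ 1 * ‖u‖ := fun u => by
    rw [one_mul]
    refine abs_le_of_sq_le_sq' ?_ (norm_nonneg _) |>.2
    rw [← real_inner_self_eq_norm_sq, ← real_inner_self_eq_norm_sq, hin]
    linarith [hp u]
  obtain ⟨j, hj⟩ : ∃ j : Completion D →L[ℝ] H, ∀ u : D, j u = ι u :=
    ⟨(ι.mkContinuous 1 hb).fromCompletion, fun u => by simp⟩
  have key : ∀ (a : Completion D) (u : D), ⟪a, (u : Completion D)⟫_ℝ = ⟪j a, ι u - A u⟫_ℝ := by
    intro a u
    induction a using Completion.induction_on with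
    | hp => exact isClosed_eq (by fun_prop) (by fun_prop)
    | ih a => rw [Completion.inner_coe, hj, hin, inner_sub_right, hs]
  have hle : ∀ a : Completion D, ‖j a‖ ≤ ‖a‖ := by
    intro a
    induction a using Completion.induction_on with
    | hp => exact isClosed_le (by fun_prop) (by fun_prop)
    | ih a => rw [hj, Completion.norm_coe]; simpa using hb a
  have inj : Function.Injective j := by
    refine (injective_iff_map_eq_zero j).2 fun a ha => ?_
    have h1 : ∀ b : Completion D, ⟪a, b⟫_ℝ = 0 := by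
      intro b
      induction b using Completion.induction_on with
      | hp => exact isClosed_eq (by fun_prop) (by fun_prop)
      | ih b => rw [key, ha, inner_zero_left]
    exact inner_self_eq_zero.1 (h1 a)
  obtain ⟨r, hr⟩ := inj.hasLeftInverse
  have hr' : ∀ a, r (j a) = a := hr
  have hE : ∀ a : Completion D, ⟪r (j a), r (j a)⟫_ℝ - ⟪j a, j a⟫_ℝ = ‖a‖ ^ 2 - ‖j a‖ ^ 2 :=
    fun a => by rw [hr', real_inner_self_eq_norm_sq, real_inner_self_eq_norm_sq]
  have hlim : ∀ (a : ℕ → Completion D) (b : Completion D), Tendsto a atTop (𝓝 b) →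
      Tendsto (fun k => ⟪r (j (a k) - j b), r (j (a k) - j b)⟫_ℝ - ⟪j (a k) - j b, j (a k) - j b⟫_ℝ)
        atTop (𝓝 0) := by
    intro a b hab
    have h1 : Tendsto (fun k => a k - b) atTop (𝓝 0) := tendsto_sub_nhds_zero_iff.2 hab
    have h2 : Continuous fun c : Completion D => ‖c‖ ^ 2 - ‖j c‖ ^ 2 := by fun_prop
    have h3 := (h2.tendsto 0).comp h1
    simp only [norm_zero, map_zero, sub_self] at h3
    refine h3.congr fun k => ?_
    rw [← map_sub, hE]; rfl
  refine ⟨⟨LinearMap.range (j : Completion D →ₗ[ℝ] H), fun x y => ⟪r x, r y⟫_ℝ - ⟪x, y⟫_ℝ,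
    ?_, ?_, ?_, ?_, ?_, ?_⟩, fun u => ⟨⟨u, hj u⟩, ?_⟩, ?_⟩
  · rintro _ _ z ⟨a, rfl⟩ ⟨b, rfl⟩ -
    simp only [ContinuousLinearMap.coe_coe, ← map_add, hr']
    rw [map_add, inner_add_left, inner_add_left]; ring
  · rintro c _ z ⟨a, rfl⟩ -
    simp only [ContinuousLinearMap.coe_coe, ← map_smul, hr']
    rw [map_smul, real_inner_smul_left, real_inner_smul_left]; ring
  · intro u v _ _
    rw [real_inner_comm (r u), real_inner_comm u]
  · rintro _ ⟨a, rfl⟩
    simp only [ContinuousLinearMap.coe_coe, hE]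
    nlinarith [hle a, norm_nonneg (j a)]
  · exact hd.mono (by rintro _ ⟨u, rfl⟩; exact ⟨u, hj u⟩)
  · intro u x hu hx hc
    choose a ha using hu
    simp only [ContinuousLinearMap.coe_coe] at ha
    have hC : CauchySeq a := by
      refine Metric.cauchySeq_iff.2 fun ε hε => ?_
      obtain ⟨N₁, h1⟩ := hc (ε ^ 2 / 4) (by positivity)
      obtain ⟨N₂, h2⟩ := Metric.cauchySeq_iff.1 hx.cauchySeq (ε / 2) (by positivity)
      refine ⟨max N₁ N₂, fun k hk l hl => ?_⟩
      have h3 := h1 k (le_of_max_le_left hk) l (le_of_max_le_left hl)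
      have h4 := h2 k (le_of_max_le_right hk) l (le_of_max_le_right hl)
      rw [dist_eq_norm] at h4 ⊢
      rw [← ha k, ← ha l, ← map_sub] at h3 h4
      simp only [hE] at h3
      refine lt_of_pow_lt_pow_left₀ 2 hε.le ?_
      nlinarith [norm_nonneg (j (a k - a l))]
    obtain ⟨b, hb⟩ := cauchySeq_tendsto_of_complete hC
    have h1 : j b = x := tendsto_nhds_unique ((j.continuous.tendsto b).comp hb)
      (hx.congr fun k => (ha k).symm)
    refine ⟨⟨b, h1⟩, ?_⟩
    simpa only [ha, h1] using hlim a b hb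
  · rintro _ ⟨b, rfl⟩
    simp only [ContinuousLinearMap.coe_coe]
    rw [← hj u, hr', hr', real_inner_comm, key, hj, inner_sub_right, real_inner_comm (ι u),
      real_inner_comm (A u)]
    ring
  · rintro _ ⟨b, rfl⟩
    obtain ⟨f, hf⟩ : ∃ f : ℕ → D, Tendsto (fun k => (f k : Completion D)) atTop (𝓝 b) := by
      obtain ⟨c, hc, hcb⟩ := mem_closure_iff_seq_limit.1 (Completion.denseRange_coe (α := D) b)
      choose f hf using hc
      exact ⟨f, hcb.congr fun k => (hf k).symm⟩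
    refine ⟨f, ((j.continuous.tendsto b).comp hf).congr fun k => hj _, ?_⟩
    simpa only [hj, ContinuousLinearMap.coe_coe] using hlim _ b hf

/-- The Friedrichs extension. -/
theorem hk_fried {D : Type*} [AddCommGroup D] [Module ℝ D]
    (ι A : D →ₗ[ℝ] H) (hd : DenseRange ι) (hs : ∀ u v, ⟪A u, ι v⟫_ℝ = ⟪ι u, A v⟫_ℝ)
    (hp : ∀ u, ⟪A u, ι u⟫_ℝ ≤ 0) :
    ∃ Φ : ClosedForm H, (∀ u, Φ.IsGen (ι u) (A u)) ∧ ∀ x ∈ Φ.dom, ∃ f : ℕ → D,
      Tendsto (fun j => ι (f j)) atTop (𝓝 x) ∧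
        Tendsto (fun j => Φ.E (ι (f j) - x) (ι (f j) - x)) atTop (𝓝 0) := by
  let cd : PreInnerProductSpace.Core ℝ D :=
    { inner := fun u v => ⟪ι u, ι v⟫_ℝ - ⟪A u, ι v⟫_ℝ
      conj_inner_symm := fun u v => by
        simp only [conj_trivial]
        rw [hs v u, real_inner_comm (ι u), real_inner_comm (A u)]
      re_inner_nonneg := fun u => by
        simp only [RCLike.re_to_real]
        linarith [hp u, real_inner_self_nonneg (x := ι u)]
      add_left := fun u v w => by simp only [map_add, inner_add_left]; ring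
      smul_left := fun u v c => by
        simp only [map_smul, real_inner_smul_left, conj_trivial]; ring }
  let _ : SeminormedAddCommGroup D := InnerProductSpace.Core.toSeminormedAddCommGroup (c := cd)
  let _ : InnerProductSpace ℝ D := InnerProductSpace.ofCore cd
  exact hk_fried_aux ι A hd hs hp fun u v => rfl

/-- The resolvent minimises `E v v + l ‖v - f‖²`. -/
theorem hk_res_fix {Φ : ClosedForm H} (R : Resolvent Φ) {P : H → H} {l : ℝ} (hl : 0 < l) {f : H}
    (hdom : ∀ u ∈ Φ.dom, P u ∈ Φ.dom ∧ Φ.E (P u) (P u) ≤ Φ.E u u)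
    (hf : ∀ u, ‖P u - f‖ ≤ ‖u - f‖) : P (l • R.res l f) = l • R.res l f := by
  obtain ⟨u, hu⟩ : ∃ u, u = l • R.res l f := ⟨_, rfl⟩
  have hm : u ∈ Φ.dom := hu ▸ Φ.dom.smul_mem _ (R.mem hl f)
  obtain ⟨h1, h2⟩ := hdom u hm
  obtain ⟨w, hw⟩ : ∃ w, w = P u - u := ⟨_, rfl⟩
  have hwm : w ∈ Φ.dom := hw ▸ Φ.dom.sub_mem h1 hm
  have h3 : Φ.E u w = l * ⟪f - u, w⟫_ℝ := by rw [hu]; exact R.d2b_E hl f hwm
  have e : P u = u + w := by rw [hw]; abel
  have h4 : Φ.E (P u) (P u) = Φ.E u u + 2 * Φ.E u w + Φ.E w w := by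
    rw [e, Φ.add_left _ _ _ hm hwm (Φ.dom.add_mem hm hwm), Φ.add_right hm hwm hm,
      Φ.add_right hm hwm hwm, Φ.symm w u hwm hm]
    ring
  have h5 : ‖P u - f‖ ^ 2 = ‖u - f‖ ^ 2 - 2 * ⟪f - u, w⟫_ℝ + ‖w‖ ^ 2 := by
    rw [show P u - f = -(f - u - w) by rw [e]; abel, norm_neg, norm_sub_sq_real, norm_sub_rev]
  have h6 : ‖P u - f‖ ^ 2 ≤ ‖u - f‖ ^ 2 := pow_le_pow_left₀ (norm_nonneg _) (hf u) 2
  have h7 := Φ.nonneg w hwm
  have h8 : l * ‖w‖ ^ 2 ≤ 0 := by nlinarith
  have h9 : ‖w‖ ^ 2 ≤ 0 := nonpos_of_mul_nonpos_right h8 hl |> fun h => h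
  have h10 : w = 0 := norm_eq_zero.1 (pow_eq_zero_iff two_ne_zero |>.1 (le_antisymm h9 (sq_nonneg _)))
  rw [← hu, e, h10, add_zero]

/-- Weak limits. -/
theorem hk_weak_lim {α : Type*} {l : Filter α} [l.IsCountablyGenerated] [l.NeBot] (k : α → H)
    (ℓ : H → ℝ) (h : ∀ f, Tendsto (fun a => ⟪k a, f⟫_ℝ) l (𝓝 (ℓ f))) :
    ∃ v : H, ∀ f, ⟪v, f⟫_ℝ = ℓ f :=
  ⟨(InnerProductSpace.toDual ℝ H).symm (continuousLinearMapOfTendsto (l := l)
    (fun a => innerSL ℝ (k a)) (f := ℓ) (tendsto_pi_nhds.2 h)), fun f => by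
      rw [InnerProductSpace.toDual_symm_apply]; rfl⟩

section weak
variable {F : Type*} [NormedAddCommGroup F] [NormedSpace ℝ F] [FiniteDimensional ℝ F]

theorem hk_weak_diff {Ω : Set F} (hΩ : IsOpen Ω) {h : F → H}
    (hw : ∀ f, ContDiffOn ℝ ∞ (fun y => ⟪h y, f⟫_ℝ) Ω) {y : F} (hy : y ∈ Ω) :
    DifferentiableAt ℝ h y := by
  have hd : ∀ f, ∀ z ∈ Ω, HasFDerivAt (fun y => ⟪h y, f⟫_ℝ) (fderiv ℝ (fun y => ⟪h y, f⟫_ℝ) z) z :=
    fun f z hz => (((hw f).contDiffAt (hΩ.mem_nhds hz)).differentiableAt (by simp)).hasFDerivAt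
  have h1 : ∀ v : F, ∃ w : H, ∀ f, ⟪w, f⟫_ℝ = fderiv ℝ (fun y => ⟪h y, f⟫_ℝ) y v := fun v =>
    hk_weak_lim (l := 𝓝[≠] (0 : ℝ)) (fun t => t⁻¹ • (h (y + t • v) - h y)) _ fun f => by
      simpa only [real_inner_smul_left, inner_sub_left, smul_eq_mul] using
        ((hd f y hy).hasLineDerivAt v).tendsto_slope_zero
  choose w hw' using h1
  let L₀ : F →ₗ[ℝ] H :=
    { toFun := w
      map_add' := fun u v => ext_inner_right ℝ fun f => by simp only [inner_add_left, hw', map_add]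
      map_smul' := fun c v => ext_inner_right ℝ fun f => by
        simp only [real_inner_smul_left, hw', map_smul, RingHom.id_apply, smul_eq_mul] }
  let L : F →L[ℝ] H := LinearMap.toContinuousLinearMap L₀
  have hL : ∀ v f, ⟪L v, f⟫_ℝ = fderiv ℝ (fun y => ⟪h y, f⟫_ℝ) y v := hw'
  obtain ⟨r, hr, hB⟩ := nhds_basis_closedBall.mem_iff.1 (hΩ.mem_nhds hy)
  have h2 : ∀ f, ∃ C : ℝ, ∀ z : closedBall y r,
      ‖innerSL ℝ ((‖z.1 - y‖ ^ 2)⁻¹ • (h z - h y - L (z - y))) f‖ ≤ C := by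
    intro f
    obtain ⟨K, hK⟩ := (((hw f).fderiv_of_isOpen (m := 1) hΩ (by
      rw [show (1 + 1 : WithTop ℕ∞) = ((2 : ℕ∞) : WithTop ℕ∞) from rfl]
      exact_mod_cast le_top)).mono hB).exists_lipschitzOnWith
        one_ne_zero (convex_closedBall y r) (isCompact_closedBall y r)
    refine ⟨K, fun z => ?_⟩
    have hz : ‖z.1 - y‖ ≤ r := mem_closedBall_iff_norm.1 z.2
    have hs : closedBall y ‖z.1 - y‖ ⊆ closedBall y r := closedBall_subset_closedBall hz
    have h3 := (convex_closedBall y ‖z.1 - y‖).norm_image_sub_le_of_norm_hasFDerivWithin_le'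
      (C := K * ‖z.1 - y‖) (φ := fderiv ℝ (fun y => ⟪h y, f⟫_ℝ) y)
      (fun x hx => (hd f x (hB (hs hx))).hasFDerivWithinAt)
      (fun x hx => (hK.norm_sub_le (hs hx) (mem_closedBall_self hr.le)).trans
        (mul_le_mul_of_nonneg_left (mem_closedBall_iff_norm.1 hx) K.2))
      (mem_closedBall_self (norm_nonneg _)) (mem_closedBall_iff_norm.2 le_rfl)
    rw [innerSL_apply_apply, real_inner_smul_left, inner_sub_left, inner_sub_left, hL, norm_mul,
      norm_inv, norm_pow, norm_norm]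
    rcases eq_or_ne ‖z.1 - y‖ 0 with h0 | h0
    · simp [h0]
    · rw [inv_mul_le_iff₀ (by positivity)]
      linarith
  obtain ⟨C, hC⟩ := banach_steinhaus h2
  refine HasFDerivAt.differentiableAt (f' := L) ?_
  rw [hasFDerivAt_iff_isLittleO]
  refine (Asymptotics.IsBigO.of_bound C ?_).trans_isLittleO
    (Asymptotics.isLittleO_pow_sub_sub y one_lt_two)
  filter_upwards [closedBall_mem_nhds y hr] with z hz
  have h3 := hC ⟨z, hz⟩
  rw [innerSL_apply_norm, norm_smul, norm_inv, norm_pow, norm_norm] at h3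
  rw [norm_pow, norm_norm]
  rcases eq_or_ne z y with rfl | h0
  · simp
  · have : 0 < ‖z - y‖ := norm_pos_iff.2 (sub_ne_zero.2 h0)
    rw [inv_mul_le_iff₀ (by positivity)] at h3
    linarith

/-- Weakly smooth maps are smooth. -/
theorem hk_weak_smooth {Ω : Set F} (hΩ : IsOpen Ω) {h : F → H}
    (hw : ∀ f, ContDiffOn ℝ ∞ (fun y => ⟪h y, f⟫_ℝ) Ω) : ContDiffOn ℝ ∞ h Ω := by
  refine contDiffOn_infty.2 fun k => ?_
  induction k generalizing h with
  | zero =>
    exact contDiffOn_zero.2 fun y hy => (hk_weak_diff hΩ hw hy).continuousAt.continuousWithinAt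
  | succ k ih =>
    rw [Nat.cast_succ, contDiffOn_succ_iff_fderiv_of_isOpen hΩ]
    refine ⟨fun y hy => (hk_weak_diff hΩ hw hy).differentiableWithinAt, by simp,
      contDiffOn_clm_apply.2 fun v => ih fun f => ?_⟩
    refine ((((hw f).fderiv_of_isOpen (m := ∞) hΩ (by simp))).clm_apply
      (contDiffOn_const (c := v))).congr fun y hy => ?_
    have h1 := ((innerSL ℝ f).hasFDerivAt.comp y (hk_weak_diff hΩ hw hy).hasFDerivAt).fderiv
    have h2 : (fun y => ⟪h y, f⟫_ℝ) = (innerSL ℝ f) ∘ h := funext fun y => real_inner_comm _ _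
    rw [h2, h1]
    exact real_inner_comm _ _

end weak

/-- The heat flow is smooth in time. -/
theorem hk_heat_smooth {Φ : ClosedForm H} (S : SG Φ) (f : H) :
    ContDiffOn ℝ ∞ (fun t => S.heat t f) (Ioi 0) := by
  refine contDiffOn_infty.2 fun k => ?_
  induction k generalizing f with
  | zero => exact contDiffOn_zero.2 ((S.heat_cont f).mono Ioi_subset_Ici_self)
  | succ k ih =>
    rw [Nat.cast_succ, contDiffOn_succ_iff_deriv_of_isOpen isOpen_Ioi]
    refine ⟨fun t ht => (S.heat_deriv t f ht).differentiableAt.differentiableWithinAt, by simp,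
      fun t ht => ContDiffAt.contDiffWithinAt ?_⟩
    have ht' : (0 : ℝ) < t := ht
    have h1 : ContDiffAt ℝ k (fun s => S.heat (s - t / 2) (S.lap (t / 2) f)) t :=
      ContDiffAt.comp (g := fun s => S.heat s (S.lap (t / 2) f)) t
        ((ih _).contDiffAt (Ioi_mem_nhds (by linarith))) (contDiffAt_id.sub contDiffAt_const)
    refine h1.congr_of_eventuallyEq ?_
    filter_upwards [Ioi_mem_nhds (show t / 2 < t by linarith)] with s hs
    have hs' : t / 2 < s := hs
    rw [(S.heat_deriv s f (by linarith)).deriv, ← S.lap_add (by linarith) (by linarith)]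
    congr 1; ring

/-- The infinite chain of generators of `heat t f`. -/
theorem hk_chain {Φ : ClosedForm H} (S : SG Φ) (f : H) {t : ℝ} (ht : 0 < t) :
    ∃ U : ℕ → H, U 0 = S.heat t f ∧ ∀ k, Φ.IsGen (U k) (U (k + 1)) := by
  have step : ∀ p : {u : H // ∃ s f, 0 < s ∧ u = S.heat s f},
      ∃ q : {u : H // ∃ s f, 0 < s ∧ u = S.heat s f}, Φ.IsGen p.1 q.1 := by
    rintro ⟨_, s, f, hs, rfl⟩
    refine ⟨⟨S.lap s f, s / 2, S.lap (s / 2) f, by linarith, ?_⟩, S.heat_gen s f hs⟩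
    rw [← S.lap_add (by linarith) (by linarith), add_halves]
  choose nx hnx using step
  exact ⟨fun k => (nx^[k] ⟨S.heat t f, t, f, ht, rfl⟩).1, rfl, fun k => by
    simp only [Function.iterate_succ_apply']; exact hnx _⟩

/-- A smooth contraction whose fixed points are `[0, 1]`. -/
theorem hk_theta : ∃ θ : ℝ → ℝ, ContDiff ℝ ∞ θ ∧ (∀ s, |deriv θ s| ≤ 1) ∧
    ∀ s, θ s = s ↔ 0 ≤ s ∧ s ≤ 1 := by
  obtain ⟨η, hη⟩ : ∃ η : ℝ → ℝ, η = fun s => expNegInvGlue (s - 1) + expNegInvGlue (-s) := ⟨_, rfl⟩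
  have η1 : ContDiff ℝ ∞ η := by
    rw [hη]
    exact (expNegInvGlue.contDiff.comp (contDiff_id.sub contDiff_const)).add
      (expNegInvGlue.contDiff.comp contDiff_neg)
  have le1 : ∀ s, expNegInvGlue s ≤ 1 := fun s => by
    unfold expNegInvGlue
    split_ifs with h
    · exact zero_le_one
    · exact Real.exp_le_one_iff.2 (neg_nonpos.2 (inv_nonneg.2 (le_of_not_ge h)))
  have hN : ∀ s, HasDerivAt (fun s => ∫ r in (0 : ℝ)..s, η r) (η s) s := fun s =>
    (η1.continuous.integral_hasStrictDerivAt 0 s).hasDerivAt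
  have hθ : ∀ s, HasDerivAt (fun s => s - ∫ r in (0 : ℝ)..s, η r) (1 - η s) s := fun s =>
    (hasDerivAt_id s).sub (hN s)
  have hd : deriv (fun s => s - ∫ r in (0 : ℝ)..s, η r) = fun s => 1 - η s :=
    funext fun s => (hθ s).deriv
  have z01 : ∀ s, 0 ≤ s → s ≤ 1 → ∫ r in (0 : ℝ)..s, η r = 0 := fun s h0 h1 => by
    rw [intervalIntegral.integral_congr (g := fun _ => 0), intervalIntegral.integral_zero]
    intro r hr
    rw [uIcc_of_le h0] at hr
    simp only [hη, expNegInvGlue.zero_of_nonpos (show r - 1 ≤ 0 by linarith [hr.2]),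
      expNegInvGlue.zero_of_nonpos (show -r ≤ 0 by linarith [hr.1]), add_zero]
  have hc : Continuous fun s => ∫ r in (0 : ℝ)..s, η r :=
    continuous_iff_continuousAt.2 fun s => (hN s).continuousAt
  refine ⟨_, contDiff_infty_iff_deriv.2 ⟨fun s => (hθ s).differentiableAt,
    by rw [hd]; exact contDiff_const.sub η1⟩, fun s => ?_, fun s => ⟨fun h => ?_, fun h => ?_⟩⟩
  · rw [hd, hη, abs_le]
    have := expNegInvGlue.nonneg (s - 1); have := expNegInvGlue.nonneg (-s)
    have := le1 (s - 1); have := le1 (-s)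
    constructor <;> simp only <;> linarith
  · have h0 : ∫ r in (0 : ℝ)..s, η r = 0 := by simpa using h
    constructor
    · by_contra hs
      have h1 : StrictMonoOn (fun s => ∫ r in (0 : ℝ)..s, η r) (Iic 0) :=
        strictMonoOn_of_deriv_pos (convex_Iic 0) hc.continuousOn fun x hx => by
          rw [interior_Iic] at hx
          rw [(hN x).deriv, hη]
          exact add_pos_of_nonneg_of_pos (expNegInvGlue.nonneg _)
            (expNegInvGlue.pos_of_pos (neg_pos.2 hx))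
      have := h1 (le_of_not_ge hs) (le_refl (0 : ℝ)) (lt_of_not_ge hs)
      simp only [h0, z01 0 le_rfl zero_le_one, lt_self_iff_false] at this
    · by_contra hs
      have h1 : StrictMonoOn (fun s => ∫ r in (0 : ℝ)..s, η r) (Ici 1) :=
        strictMonoOn_of_deriv_pos (convex_Ici 1) hc.continuousOn fun x hx => by
          rw [interior_Ici] at hx
          rw [(hN x).deriv, hη]
          exact add_pos_of_pos_of_nonneg (expNegInvGlue.pos_of_pos (sub_pos.2 hx))
            (expNegInvGlue.nonneg _)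
      have := h1 (le_refl (1 : ℝ)) (le_of_not_ge hs) (lt_of_not_ge hs)
      simp only [h0, z01 1 zero_le_one le_rfl, lt_self_iff_false] at this
  · simp only [z01 s h.1 h.2, sub_zero]

end Crest.Agent.R247
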