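import Crest.Agent.R247.G5

/-! # Row 247, block HK: measure theory in a chart (helper56) -/

set_option autoImplicit false
set_option linter.unusedSectionVars false
set_option linter.unusedVariables false
open MeasureTheory Filter Set Metric Matrix
open scoped ENNReal NNReal Topology ContDiff
open Crest.GeometryTopology.CoordMetric

noncomputable section
namespace Crest.Agent.R247
universe u

section alg
variable {n : ℕ} {Ω : Set (E n)}

theorem hk_det {A : E n → Mat n} (h : ∀ i j, ContDiffOn ℝ ∞ (fun y => A y i j) Ω) :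
    ContDiffOn ℝ ∞ (fun y => (A y).det) Ω := by
  simp only [Matrix.det_apply']
  exact ContDiffOn.sum fun σ _ => contDiffOn_const.mul (contDiffOn_prod fun i _ => h _ _)

theorem hk_inv {A : E n → Mat n} (h : ∀ i j, ContDiffOn ℝ ∞ (fun y => A y i j) Ω)
    (h0 : ∀ y ∈ Ω, (A y).det ≠ 0) (i j : Fin n) : ContDiffOn ℝ ∞ (fun y => (A y)⁻¹ i j) Ω := by
  simp only [Matrix.inv_def, Matrix.smul_apply, Ring.inverse_eq_inv', smul_eq_mul,
    Matrix.adjugate_apply]
  refine ((hk_det h).inv h0).mul (hk_det fun k l => ?_)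
  simp only [Matrix.updateRow_apply]
  split_ifs
  · exact contDiffOn_const
  · exact h _ _

/-- `vᵢ² ≤ Gᵢᵢ · G⁻¹(v, v)`. -/
theorem hk_cs {G : Mat n} (hG : G.PosDef) (v : Fin n → ℝ) (i : Fin n) :
    v i ^ 2 ≤ G i i * ∑ k, ∑ l, G⁻¹ k l * v k * v l := by
  obtain ⟨w, hw⟩ : ∃ w, w = G⁻¹ *ᵥ v := ⟨_, rfl⟩
  have hv : G *ᵥ w = v := by
    rw [hw, Matrix.mulVec_mulVec, Matrix.mul_nonsing_inv _ hG.det_pos.ne'.isUnit, Matrix.one_mulVec]
  have h1 : ∑ k, ∑ l, G⁻¹ k l * v k * v l = w ⬝ᵥ v := by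
    rw [hw, dotProduct_comm]
    simp only [dotProduct, Matrix.mulVec, Finset.mul_sum]
    exact Finset.sum_congr rfl fun k _ => Finset.sum_congr rfl fun l _ => by ring
  have hs : ∀ a b, G a b = G b a := fun a b => by simpa using hG.isHermitian.apply b a
  have h2 : Pi.single i (1 : ℝ) ⬝ᵥ v = v i := by simp
  have h3 : w ⬝ᵥ G *ᵥ Pi.single i 1 = v i := by
    rw [← hv, Matrix.mulVec_single_one]
    simp only [dotProduct, Matrix.mulVec, Matrix.col_apply]
    exact Finset.sum_congr rfl fun k _ => by rw [hs k i, mul_comm]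
  have h4 : Pi.single i (1 : ℝ) ⬝ᵥ G *ᵥ Pi.single i 1 = G i i := by simp
  have h5 := hG.posSemidef.dotProduct_mulVec_nonneg (G i i • w - v i • Pi.single i (1 : ℝ))
  simp only [star_trivial, Matrix.mulVec_sub, Matrix.mulVec_smul, sub_dotProduct, dotProduct_sub,
    smul_dotProduct, dotProduct_smul, smul_eq_mul, hv, h2, h3, h4] at h5
  have h6 : 0 < G i i := hG.diag_pos
  rw [h1]
  nlinarith

/-- Test functions on `Ω`. -/
structure Tt (Ω : Set (E n)) (φ : E n → ℝ) : Prop where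
  sm : ContDiff ℝ ∞ φ
  cs : HasCompactSupport φ
  sub : tsupport φ ⊆ Ω

theorem Tt.zero {φ : E n → ℝ} (h : Tt Ω φ) {y : E n} (hy : y ∉ Ω) : φ y = 0 :=
  image_eq_zero_of_notMem_tsupport fun h' => hy (h.sub h')

theorem Tt.mul (hΩ : IsOpen Ω) {a φ : E n → ℝ} (ha : ContDiffOn ℝ ∞ a Ω) (h : Tt Ω φ) :
    Tt Ω fun y => a y * φ y := by
  refine ⟨contDiff_iff_contDiffAt.2 fun y => ?_, h.cs.mul_left, (tsupport_mul_subset_right).trans h.sub⟩
  by_cases hy : y ∈ Ω
  · exact (ha.contDiffAt (hΩ.mem_nhds hy)).mul h.sm.contDiffAt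
  · refine (contDiffAt_const (c := (0 : ℝ))).congr_of_eventuallyEq ?_
    filter_upwards [notMem_tsupport_iff_eventuallyEq.1 fun h' => hy (h.sub h')] with z hz
    rw [hz, Pi.zero_apply, mul_zero]

theorem Tt.pd {φ : E n → ℝ} (h : Tt Ω φ) (i : Fin n) : Tt Ω (pderiv i φ) :=
  ⟨(h.sm.fderiv_right (m := ∞) (by simp)).clm_apply contDiff_const, h.cs.fderiv_apply ℝ _,
    (tsupport_fderiv_apply_subset ℝ _).trans h.sub⟩

theorem Tt.int {φ : E n → ℝ} (h : Tt Ω φ) : Integrable φ :=
  h.sm.continuous.integrable_of_hasCompactSupport h.cs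

theorem hk_pd_smooth (hΩ : IsOpen Ω) {a : E n → ℝ} (ha : ContDiffOn ℝ ∞ a Ω) (i : Fin n) :
    ContDiffOn ℝ ∞ (pderiv i a) Ω :=
  (ha.fderiv_of_isOpen (m := ∞) hΩ (by simp)).clm_apply contDiffOn_const

theorem Tt.ibp (hΩ : IsOpen Ω) {a φ : E n → ℝ} (ha : ContDiffOn ℝ ∞ a Ω) (h : Tt Ω φ) (i : Fin n) :
    ∫ y, a y * pderiv i φ y = -∫ y, pderiv i a y * φ y :=
  integral_mul_fderiv_eq_neg_fderiv_mul_of_integrable (h.mul hΩ (hk_pd_smooth hΩ ha i)).int
    ((h.pd i).mul hΩ ha).int (h.mul hΩ ha).int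
    (fun y hy => (ha.contDiffAt (hΩ.mem_nhds (h.sub hy))).differentiableAt (by simp))
    (fun y _ => h.sm.differentiable (by simp) y)

end alg

variable {n : ℕ} {M : Type u} [MetricSpace M] [MeasurableSpace M] [BorelSpace M] [ProperSpace M]
  (g : Geo n M)

/-- The density of the measure in a chart. -/
def Geo.wt (x : M) (y : E n) : ℝ := Real.sqrt (g.gm x y).det

theorem Geo.wt_pos (x : M) {y : E n} (hy : y ∈ (g.ch x).target) : 0 < g.wt x y :=
  Real.sqrt_pos.2 ((g.gm_riem x).posDef y hy).det_pos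

theorem Geo.wt_sm (x : M) : ContDiffOn ℝ ∞ (g.wt x) (g.ch x).target :=
  (hk_det (g.gm_riem x).contDiffOn).sqrt fun y hy => ((g.gm_riem x).posDef y hy).det_pos.ne'

theorem Geo.inv_sm (x : M) (i j : Fin n) :
    ContDiffOn ℝ ∞ (fun y => (g.gm x y)⁻¹ i j) (g.ch x).target :=
  hk_inv (g.gm_riem x).contDiffOn (fun y hy => ((g.gm_riem x).posDef y hy).det_pos.ne') i j

/-- The pull-back of the measure to a chart. -/
def Geo.mu (x : M) : Measure (E n) :=
  (volume.restrict (g.ch x).target).withDensity fun y => ENNReal.ofReal (g.wt x y)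

theorem Geo.wt_aem (x : M) :
    AEMeasurable (fun y => ENNReal.ofReal (g.wt x y)) (volume.restrict (g.ch x).target) :=
  ((g.wt_sm x).continuousOn.aemeasurable (g.ch x).open_target.measurableSet).ennreal_ofReal

theorem Geo.symm_aem (x : M) : AEMeasurable (g.ch x).symm (g.mu x) :=
  ((g.ch x).continuousOn_symm.aemeasurable (g.ch x).open_target.measurableSet).mono_ac
    (withDensity_absolutelyContinuous _ _)

theorem Geo.ch_map (x : M) : g.m.restrict (g.ch x).source = (g.mu x).map (g.ch x).symm := by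
  refine Measure.ext_of_lintegral _ fun φ hφ => ?_
  rw [g.m_ch x φ hφ, lintegral_map' hφ.aemeasurable (g.symm_aem x), Geo.mu,
    lintegral_withDensity_eq_lintegral_mul₀ (g.wt_aem x) (g := fun y => φ ((g.ch x).symm y))
      (hφ.comp_aemeasurable
      ((g.ch x).continuousOn_symm.aemeasurable (g.ch x).open_target.measurableSet))]
  exact lintegral_congr fun y => mul_comm _ _

theorem Geo.ch_int (x : M) {F : M → ℝ}
    (hF : AEStronglyMeasurable F (g.m.restrict (g.ch x).source)) :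
    ∫ z in (g.ch x).source, F z ∂g.m =
      ∫ y in (g.ch x).target, g.wt x y * F ((g.ch x).symm y) := by
  rw [g.ch_map x] at hF ⊢
  rw [integral_map (g.symm_aem x) hF, Geo.mu,
    integral_withDensity_eq_integral_toReal_smul₀ (g.wt_aem x) (by simp)]
  refine integral_congr_ae (Eventually.of_forall fun y => ?_)
  simp only [smul_eq_mul]
  rw [ENNReal.toReal_ofReal (show 0 ≤ g.wt x y from Real.sqrt_nonneg _)]

theorem Geo.ch_ae (x : M) {p : M → Prop} (h : ∀ᵐ z ∂g.m, p z) :
    ∀ᵐ y, y ∈ (g.ch x).target → p ((g.ch x).symm y) := by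
  have h1 : ∀ᵐ z ∂g.m.restrict (g.ch x).source, p z := ae_restrict_of_ae h
  rw [g.ch_map x] at h1
  have h2 := ae_of_ae_map (g.symm_aem x) h1
  refine ae_imp_of_ae_restrict ((withDensity_absolutelyContinuous' (g.wt_aem x) ?_).ae_le h2)
  filter_upwards [ae_restrict_mem (g.ch x).open_target.measurableSet] with y hy
  exact (ENNReal.ofReal_pos.2 (g.wt_pos x hy)).ne'

theorem Geo.ch_ae' (x : M) {p : M → Prop}
    (h : ∀ᵐ y, y ∈ (g.ch x).target → p ((g.ch x).symm y)) :
    ∀ᵐ z ∂g.m, z ∈ (g.ch x).source → p z := by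
  obtain ⟨N, hN, hNm, hN0⟩ := exists_measurable_superset_of_null (ae_iff.1 h)
  have hA : MeasurableSet ((g.ch x).symm '' (N ∩ (g.ch x).target)) :=
    (hNm.inter (g.ch x).open_target.measurableSet).image_of_continuousOn_injOn
      ((g.ch x).continuousOn_symm.mono inter_subset_right)
      ((g.ch x).symm.injOn.mono inter_subset_right)
  have h1 : ∀ᵐ z ∂g.m.restrict (g.ch x).source, z ∉ (g.ch x).symm '' (N ∩ (g.ch x).target) := by
    rw [g.ch_map x, ae_map_iff (g.symm_aem x) hA.compl]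
    refine (withDensity_absolutelyContinuous _ _).ae_le ?_
    filter_upwards [ae_restrict_mem (g.ch x).open_target.measurableSet,
      ae_restrict_of_ae (measure_eq_zero_iff_ae_notMem.1 hN0)] with y hy hyN
    rintro ⟨y', ⟨h1, h2⟩, h3⟩
    exact hyN ((g.ch x).symm.injOn h2 hy h3 ▸ h1)
  filter_upwards [ae_imp_of_ae_restrict h1] with z hz hs
  by_contra hp
  refine hz hs ⟨g.ch x z, ⟨hN ?_, (g.ch x).map_source hs⟩, (g.ch x).left_inv hs⟩
  simp only [mem_ofPred_eq, (g.ch x).left_inv hs]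
  exact fun h' => hp (h' ((g.ch x).map_source hs))

theorem Geo.ae_of_ch {p : M → Prop}
    (h : ∀ x, ∀ᵐ y, y ∈ (g.ch x).target → p ((g.ch x).symm y)) : ∀ᵐ z ∂g.m, p z := by
  refine measure_null_of_locally_null _ fun x _ => ⟨{z | ¬p z} ∩ (g.ch x).source,
    inter_mem_nhdsWithin _ ((g.ch x).open_source.mem_nhds (g.mem_ch x)), ?_⟩
  refine measure_mono_null ?_ (ae_iff.1 (g.ch_ae' x (h x)))
  exact fun z hz h' => hz.1 (h' hz.2)

theorem Geo.ch_memLp (x : M) {F : M → ℝ} (hF : MemLp F 2 g.m) {K : Set (E n)}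
    (hK : K ⊆ (g.ch x).target) (hc : IsCompact K) :
    MemLp (fun y => F ((g.ch x).symm y)) 2 (volume.restrict K) := by
  have h1 := hF.restrict (g.ch x).source
  rw [g.ch_map x] at h1
  obtain ⟨C, hC⟩ := hc.exists_bound_of_continuousOn
    (((g.wt_sm x).continuousOn.inv₀ fun y hy => (g.wt_pos x hy).ne').mono hK)
  refine (h1.comp_of_map (g.symm_aem x)).of_measure_le_smul (c := ENNReal.ofReal C)
    ENNReal.ofReal_ne_top ?_
  rw [Geo.mu, ← withDensity_smul' _ _ ENNReal.ofReal_ne_top,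
    ← Measure.restrict_restrict_of_subset hK, ← withDensity_indicator_one hc.measurableSet]
  refine withDensity_mono (Eventually.of_forall fun y => ?_)
  by_cases hy : y ∈ K
  · have h2 := g.wt_pos x (hK hy)
    have h3 := hC y hy
    rw [Pi.inv_apply, Real.norm_of_nonneg (inv_pos.2 h2).le] at h3
    simp only [indicator_of_mem hy, Pi.one_apply, Pi.smul_apply, smul_eq_mul]
    rw [← ENNReal.ofReal_mul ((inv_pos.2 h2).le.trans h3), ← ENNReal.ofReal_one]
    exact ENNReal.ofReal_le_ofReal ((inv_le_iff_one_le_mul₀ h2).1 h3)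
  · simp [hy]

theorem Geo.ch_loc (x : M) {F : M → ℝ} (hF : MemLp F 2 g.m) :
    LocallyIntegrableOn (fun y => F ((g.ch x).symm y)) (g.ch x).target := by
  refine (locallyIntegrableOn_iff (g.ch x).open_target.isLocallyClosed).2 fun K hK hc => ?_
  have : IsFiniteMeasure (volume.restrict K) := isFiniteMeasure_restrict.2 hc.measure_lt_top.ne
  exact (g.ch_memLp x hF hK hc).integrable one_le_two

theorem Geo.ch_integrable (x : M) {F : M → ℝ} (hF : MemLp F 2 g.m) {ψ : E n → ℝ}
    (h : Tt (g.ch x).target ψ) : Integrable fun y => F ((g.ch x).symm y) * ψ y := by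
  refine (integrableOn_iff_integrable_of_support_subset
    ((Function.support_mul_subset_right _ _).trans (subset_tsupport ψ))).1 ?_
  exact ((g.ch_loc x hF).integrableOn_compact_subset h.sub h.cs).mul_continuousOn
    h.sm.continuous.continuousOn h.cs

/-- Extension by zero of a function on a chart. -/
def Geo.ext (x : M) (ψ : E n → ℝ) : M → ℝ := (g.ch x).source.indicator fun z => ψ (g.ch x z)

theorem Geo.ext_S (x : M) {ψ : E n → ℝ} (h : Tt (g.ch x).target ψ) : g.S (g.ext x ψ) :=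
  g.S_ext x h.sm h.cs h.sub

theorem Geo.ext_symm (x : M) (ψ : E n → ℝ) {y : E n} (hy : y ∈ (g.ch x).target) :
    g.ext x ψ ((g.ch x).symm y) = ψ y := by
  rw [Geo.ext, indicator_of_mem ((g.ch x).map_target hy), (g.ch x).right_inv hy]

theorem Geo.ext_supp (x : M) {ψ : E n → ℝ} (h : Tt (g.ch x).target ψ) :
    HasCompactSupport (g.ext x ψ) ∧ tsupport (g.ext x ψ) ⊆ (g.ch x).source := by
  have hK : IsCompact ((g.ch x).symm '' tsupport ψ) :=
    h.cs.isCompact.image_of_continuousOn ((g.ch x).continuousOn_symm.mono h.sub)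
  have h1 : Function.support (g.ext x ψ) ⊆ (g.ch x).symm '' tsupport ψ := fun z hz => by
    have hs : z ∈ (g.ch x).source := mem_of_indicator_ne_zero hz
    rw [Function.mem_support, Geo.ext, indicator_of_mem hs] at hz
    exact ⟨g.ch x z, subset_tsupport _ hz, (g.ch x).left_inv hs⟩
  have h2 : tsupport (g.ext x ψ) ⊆ (g.ch x).symm '' tsupport ψ := closure_minimal h1 hK.isClosed
  refine ⟨hK.of_isClosed_subset (isClosed_tsupport _) h2, h2.trans ?_⟩
  rintro _ ⟨y, hy, rfl⟩
  exact (g.ch x).map_target (h.sub hy)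

theorem Geo.ext_int (x : M) {F : M → ℝ} (hF : AEStronglyMeasurable F g.m) {ψ : E n → ℝ}
    (h : Tt (g.ch x).target ψ) :
    ∫ z, F z * g.ext x ψ z ∂g.m = ∫ y, F ((g.ch x).symm y) * (g.wt x y * ψ y) := by
  rw [← setIntegral_eq_integral_of_forall_compl_eq_zero (s := (g.ch x).source) fun z hz => by
      rw [Geo.ext, indicator_of_notMem hz, mul_zero],
    g.ch_int x (F := fun z => F z * g.ext x ψ z)
      (hF.mul (g.S_cont (g.ext_S x h)).aestronglyMeasurable).restrict,
    ← setIntegral_eq_integral_of_forall_compl_eq_zero (s := (g.ch x).target)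
      (f := fun y => F ((g.ch x).symm y) * (g.wt x y * ψ y)) fun y hy => by
      rw [h.zero hy, mul_zero, mul_zero]]
  refine setIntegral_congr_fun (g.ch x).open_target.measurableSet fun y hy => ?_
  simp only [g.ext_symm x ψ hy]
  ring

theorem Geo.inv_wt_sm (x : M) : ContDiffOn ℝ ∞ (fun y => (g.wt x y)⁻¹) (g.ch x).target :=
  (g.wt_sm x).inv fun y hy => (g.wt_pos x hy).ne'

theorem Geo.ext_int' (x : M) {F : M → ℝ} (hF : AEStronglyMeasurable F g.m) {ψ : E n → ℝ}
    (h : Tt (g.ch x).target ψ) :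
    ∫ z, F z * g.ext x (fun y => (g.wt x y)⁻¹ * ψ y) z ∂g.m = ∫ y, F ((g.ch x).symm y) * ψ y := by
  rw [g.ext_int x hF (h.mul (g.ch x).open_target (g.inv_wt_sm x))]
  refine integral_congr_ae (Eventually.of_forall fun y => ?_)
  by_cases hy : y ∈ (g.ch x).target
  · simp only [mul_inv_cancel_left₀ (g.wt_pos x hy).ne']
  · simp only [h.zero hy, mul_zero]

theorem Geo.S_ch {f : M → ℝ} (hf : g.S f) (x : M) :
    ContDiffOn ℝ ∞ (fun y => f ((g.ch x).symm y)) (g.ch x).target :=
  (g.Sm_ch ((g.S_iff f).1 hf) x).comp (f := fun y => ((0 : ℝ), y))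
    (contDiffOn_const.prodMk contDiffOn_id) fun y hy => ⟨mem_univ _, hy⟩

theorem Geo.S_of_ch {f : M → ℝ}
    (hf : ∀ x, ContDiffOn ℝ ∞ (fun y => f ((g.ch x).symm y)) (g.ch x).target) : g.S f :=
  (g.S_iff f).2 (g.Sm_of_ch fun x => (hf x).comp contDiffOn_snd fun p hp => hp.2)

end Crest.Agent.R247
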