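import Crest.Agent.R247.HK.Chart
import Crest.Agent.R247.HK.Abs

/-! # Row 247, block HK: the Friedrichs form and the Markov property (helper56) -/

set_option autoImplicit false
set_option linter.unusedSectionVars false
set_option linter.unusedVariables false
open MeasureTheory Filter Set Metric Matrix
open scoped ENNReal NNReal Topology ContDiff InnerProductSpace
open Crest.GeometryTopology.CoordMetric Crest.Agent.R242

noncomputable section
namespace Crest.Agent.R247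
universe u

section abs
variable {H : Type*} [NormedAddCommGroup H] [InnerProductSpace ℝ H] [CompleteSpace H]
  {Φ : ClosedForm H}

theorem hk_E_left {v : ℕ → H} {x w : H} (hv : ∀ j, v j ∈ Φ.dom) (hx : x ∈ Φ.dom) (hw : w ∈ Φ.dom)
    (h : Tendsto (fun j => Φ.E (v j - x) (v j - x)) atTop (𝓝 0)) :
    Tendsto (fun j => Φ.E (v j) w) atTop (𝓝 (Φ.E x w)) := by
  rw [tendsto_iff_norm_sub_tendsto_zero]
  refine squeeze_zero (fun j => norm_nonneg _) (fun j => ?_)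
    (by simpa using h.sqrt.mul_const (Real.sqrt (Φ.E w w)))
  rw [← Φ.sub_left (hv j) hx hw]
  exact Φ.abs_le (Φ.dom.sub_mem (hv j) hx) hw

theorem hk_E_self {v : ℕ → H} {x : H} (hv : ∀ j, v j ∈ Φ.dom) (hx : x ∈ Φ.dom)
    (h : Tendsto (fun j => Φ.E (v j - x) (v j - x)) atTop (𝓝 0)) :
    Tendsto (fun j => Φ.E (v j) (v j)) atTop (𝓝 (Φ.E x x)) := by
  have h1 := (h.add ((hk_E_left hv hx hx h).const_mul 2)).sub_const (Φ.E x x)
  rw [show 0 + 2 * Φ.E x x - Φ.E x x = Φ.E x x by ring] at h1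
  refine h1.congr fun j => ?_
  rw [Φ.sub_left (hv j) hx (Φ.dom.sub_mem (hv j) hx), Φ.sub_right (hv j) hx (hv j),
    Φ.sub_right (hv j) hx hx, Φ.symm x (v j) hx (hv j)]
  ring

theorem hk_cauchy {v T : ℕ → H} {x : H} (hv : ∀ j, v j ∈ Φ.dom) (hx : x ∈ Φ.dom)
    (h : Tendsto (fun j => Φ.E (v j - x) (v j - x)) atTop (𝓝 0))
    (hT : ∀ j k, ‖T j - T k‖ ≤ Real.sqrt (Φ.E (v j - v k) (v j - v k))) :
    ∃ w, Tendsto T atTop (𝓝 w) := by
  refine cauchySeq_tendsto_of_complete (Metric.cauchySeq_iff.2 fun ε hε => ?_)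
  have h1 := h.sqrt
  rw [Real.sqrt_zero] at h1
  obtain ⟨N, hN⟩ := eventually_atTop.1 (h1.eventually (eventually_lt_nhds (half_pos hε)))
  refine ⟨N, fun j hj k hk => ?_⟩
  have hj' := Φ.dom.sub_mem (hv j) hx
  have hk' := Φ.dom.sub_mem (hv k) hx
  have h2 := Φ.sqrt_add_le hj' (Φ.dom.smul_mem (-1) hk')
  rw [Φ.smul_left _ _ _ hk' (Φ.dom.smul_mem (-1) hk'), Φ.smul_right _ hk' hk',
    show v j - x + (-1 : ℝ) • (v k - x) = v j - v k by rw [neg_one_smul]; abel,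
    show ∀ a : ℝ, -1 * (-1 * a) = a from fun a => by ring] at h2
  rw [dist_eq_norm]
  linarith [hT j k, hN j hj, hN k hk]

end abs

theorem hk_inner {α : Type*} [MeasurableSpace α] {μ : Measure α} {u v : Lp ℝ 2 μ} {f f' : α → ℝ}
    (hu : u =ᵐ[μ] f) (hv : v =ᵐ[μ] f') : ⟪u, v⟫_ℝ = ∫ z, f z * f' z ∂μ := by
  rw [L2.inner_def]
  refine integral_congr_ae ?_
  filter_upwards [hu, hv] with z h1 h2
  rw [h1, h2, real_inner_comm]; rfl

theorem hk_norm {α : Type*} [MeasurableSpace α] {μ : Measure α} {u : Lp ℝ 2 μ} {f : α → ℝ}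
    (hu : u =ᵐ[μ] f) : ‖u‖ ^ 2 = ∫ z, f z ^ 2 ∂μ := by
  rw [← real_inner_self_eq_norm_sq, hk_inner hu hu]
  simp only [sq]

variable {n : ℕ} {M : Type u} [MetricSpace M] [MeasurableSpace M] [BorelSpace M] [ProperSpace M]
  (g : Geo n M)

/-- Smooth functions with compact support. -/
def Geo.D0 : Submodule ℝ (M → ℝ) where
  carrier := {f | g.S f ∧ HasCompactSupport f}
  add_mem' := fun hf hf' => ⟨g.S_add hf.1 hf'.1, hf.2.add hf'.2⟩
  zero_mem' := ⟨g.S_const 0, HasCompactSupport.zero⟩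
  smul_mem' := fun c f hf => ⟨g.S_cmul c hf.1, hf.2.smul_left (f := fun _ => c)⟩

theorem Geo.memLp_cs {f : M → ℝ} (hf : Continuous f) (hc : HasCompactSupport f) : MemLp f 2 g.m :=
  haveI := g.fin_cpt
  hf.memLp_of_hasCompactSupport hc

/-- The class in `L²`. -/
def Geo.io : g.D0 →ₗ[ℝ] Lp ℝ 2 g.m where
  toFun f := (g.memLp_cs (g.S_cont f.2.1) f.2.2).toLp f
  map_add' f f' := MemLp.toLp_add _ _
  map_smul' c f := MemLp.toLp_const_smul _ _

/-- The Laplacian on `D0`. -/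
def Geo.lapD : g.D0 →ₗ[ℝ] g.D0 where
  toFun f := ⟨g.Δ f, g.S_Δ f.2.1, g.cs_Δ f.2.2⟩
  map_add' f f' := Subtype.ext (funext fun x => g.Δ_add f.2.1 f'.2.1 x)
  map_smul' c f := Subtype.ext (funext fun x => g.Δ_cmul c f.2.1 x)

theorem Geo.io_ae (f : g.D0) : g.io f =ᵐ[g.m] f :=
  MemLp.coeFn_toLp (g.memLp_cs (g.S_cont f.2.1) f.2.2)

theorem Geo.int_Δ_comm {χ e : M → ℝ} (hχ : g.S χ) (hc : HasCompactSupport χ) (he : g.S e) :
    ∫ y, e y * g.Δ χ y ∂g.m = ∫ y, g.Δ e y * χ y ∂g.m := by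
  have h := g.green hχ hc he (g.S_const 1)
  simp only [g.Δ_const, g.Γ_const_left, mul_zero, mul_one, one_mul, add_zero, integral_zero,
    zero_add] at h
  rw [← h]
  simp only [mul_comm]

theorem Geo.io_lap (u v : g.D0) : ⟪g.io (g.lapD u), g.io v⟫_ℝ = -∫ z, g.Γ u v z ∂g.m := by
  rw [hk_inner (g.io_ae _) (g.io_ae _)]
  have := g.ibp v.2.1 u.2.1 v.2.2
  simp only [g.Γ_comm v] at this
  rw [this, neg_neg]
  exact integral_congr_ae (Eventually.of_forall fun z => mul_comm _ _)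

/-- A test function on a chart as an element of `D0`. -/
def Geo.extD (x : M) {ψ : E n → ℝ} (h : Tt (g.ch x).target ψ) : g.D0 :=
  ⟨g.ext x ψ, g.ext_S x h, (g.ext_supp x h).1⟩

theorem Geo.inner_ext (x : M) (u : Lp ℝ 2 g.m) {ψ : E n → ℝ} (h : Tt (g.ch x).target ψ) :
    ⟪u, g.io (g.extD x h)⟫_ℝ = ∫ y, u ((g.ch x).symm y) * (g.wt x y * ψ y) := by
  rw [hk_inner EventuallyEq.rfl (g.io_ae _)]
  exact g.ext_int x (Lp.aestronglyMeasurable u) h

theorem Geo.inner_ext' (x : M) (u : Lp ℝ 2 g.m) {ψ : E n → ℝ} (h : Tt (g.ch x).target ψ) :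
    ⟪u, g.io (g.extD x (h.mul (g.ch x).open_target (g.inv_wt_sm x)))⟫_ℝ =
      ∫ y, u ((g.ch x).symm y) * ψ y := by
  rw [hk_inner EventuallyEq.rfl (g.io_ae _)]
  exact g.ext_int' x (Lp.aestronglyMeasurable u) h

theorem Geo.io_dense : DenseRange g.io := by
  have : Dense (LinearMap.range g.io : Set (Lp ℝ 2 g.m)) := by
    rw [Submodule.dense_iff_topologicalClosure_eq_top, Submodule.topologicalClosure_eq_top_iff,
      Submodule.eq_bot_iff]
    intro u hu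
    refine Lp.eq_zero_iff_ae_eq_zero.2 (g.ae_of_ch (p := fun z => u z = 0) fun x => ?_)
    refine (g.ch x).open_target.ae_eq_zero_of_integral_contDiff_smul_eq_zero
      (g.ch_loc x (Lp.memLp u)) fun φ h1 h2 h3 => ?_
    have h4 := (Submodule.mem_orthogonal' _ _).1 hu _
      ⟨g.extD x ((Tt.mk h1 h2 h3).mul (g.ch x).open_target (g.inv_wt_sm x)), rfl⟩
    rw [g.inner_ext' x u ⟨h1, h2, h3⟩] at h4
    simpa only [smul_eq_mul, mul_comm] using h4
  exact this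

/-- `Φ` is the Friedrichs form. -/
structure Geo.Fr (Φ : ClosedForm (Lp ℝ 2 g.m)) : Prop where
  gen : ∀ u, Φ.IsGen (g.io u) (g.io (g.lapD u))
  core : ∀ x ∈ Φ.dom, ∃ f : ℕ → g.D0, Tendsto (fun j => g.io (f j)) atTop (𝓝 x) ∧
    Tendsto (fun j => Φ.E (g.io (f j) - x) (g.io (f j) - x)) atTop (𝓝 0)

theorem Geo.exists_fr : ∃ Φ, g.Fr Φ := by
  obtain ⟨Φ, h1, h2⟩ := hk_fried g.io (g.io ∘ₗ g.lapD) g.io_dense
    (fun u v => by
      rw [LinearMap.comp_apply, LinearMap.comp_apply, real_inner_comm (g.io (g.lapD v)), g.io_lap,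
        g.io_lap]
      simp only [g.Γ_comm u])
    (fun u => by
      rw [LinearMap.comp_apply, g.io_lap, neg_nonpos]
      exact integral_nonneg fun z => g.Γ_nonneg _ z)
  exact ⟨Φ, h1, h2⟩

variable {g} {Φ : ClosedForm (Lp ℝ 2 g.m)}

theorem Geo.Fr.E_io (h : g.Fr Φ) (u v : g.D0) : Φ.E (g.io u) (g.io v) = ∫ z, g.Γ u v z ∂g.m := by
  rw [(h.gen u).2 _ (h.gen v).1, g.io_lap, neg_neg]

theorem Geo.Fr.markov (h : g.Fr Φ) (S : SG Φ) {t : ℝ} (ht : 0 ≤ t) {f : Lp ℝ 2 g.m}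
    (hf : ∀ᵐ z ∂g.m, 0 ≤ f z ∧ f z ≤ 1) : ∀ᵐ z ∂g.m, 0 ≤ S.heat t f z ∧ S.heat t f z ≤ 1 := by
  obtain ⟨θ, θ1, θ2, θ3⟩ := hk_theta
  have θ0 : θ 0 = 0 := (θ3 0).2 ⟨le_rfl, zero_le_one⟩
  have θL : LipschitzWith 1 θ := lipschitzWith_of_nnnorm_deriv_le (θ1.differentiable (by simp))
    fun s => by rw [← NNReal.coe_le_coe]; exact θ2 s
  have hC : ∀ u : Lp ℝ 2 g.m, θL.compLp θ0 u = u ↔ ∀ᵐ z ∂g.m, 0 ≤ u z ∧ u z ≤ 1 := fun u => by
    rw [Lp.ext_iff]
    refine eventually_congr ?_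
    filter_upwards [θL.coeFn_compLp θ0 u] with z hz
    rw [hz, Function.comp_apply, θ3]
  refine S.invariant {u | ∀ᵐ z ∂g.m, 0 ≤ u z ∧ u z ≤ 1} ?_ ?_ (fun l f hl hf => (hC _).1 ?_) t f ht hf
  · simp only [← hC]
    exact isClosed_eq (θL.continuous_compLp θ0) continuous_id
  · intro u hu v hv a b ha hb hab
    filter_upwards [hu, hv, Lp.coeFn_add (a • u) (b • v), Lp.coeFn_smul a u, Lp.coeFn_smul b v]
      with z h1 h2 h3 h4 h5
    rw [h3, Pi.add_apply, h4, h5, Pi.smul_apply, Pi.smul_apply, smul_eq_mul, smul_eq_mul]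
    constructor <;> nlinarith [h1.1, h1.2, h2.1, h2.2]
  refine hk_res_fix S.toResolvent hl (fun u hu => ?_) fun u => ?_
  swap
  · conv_lhs => rw [← (hC f).2 hf]
    simpa using θL.norm_compLp_sub_le θ0 u f
  obtain ⟨F, F1, F2⟩ := h.core u hu
  let G : ℕ → g.D0 := fun j => ⟨fun z => θ ((F j : M → ℝ) z),
    g.S_comp (F j).2.1 isOpen_univ θ1.contDiffOn fun _ => mem_univ _, (F j).2.2.comp_left θ0⟩
  have G1 : ∀ j, g.io (G j) = θL.compLp θ0 (g.io (F j)) := fun j => by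
    refine Lp.ext ?_
    filter_upwards [θL.coeFn_compLp θ0 (g.io (F j)), g.io_ae (F j), g.io_ae (G j)] with z h1 h2 h3
    rw [h1, h3, Function.comp_apply, h2]
  have G2 : Tendsto (fun j => g.io (G j)) atTop (𝓝 (θL.compLp θ0 u)) := by
    simp only [G1]
    exact ((θL.continuous_compLp θ0).tendsto u).comp F1
  have G3 : ∀ j, Φ.E (g.io (G j)) (g.io (G j)) ≤ Φ.E (g.io (F j)) (g.io (F j)) := fun j => by
    rw [h.E_io, h.E_io]
    refine integral_mono_of_nonneg (Eventually.of_forall fun z => g.Γ_nonneg _ z)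
      (g.int_cs (g.S_cont (g.S_Γ (F j).2.1 (F j).2.1)) (g.cs_Γ (F j).2.2 _))
      (Eventually.of_forall fun z => ?_)
    have e := g.Γ_comp_left (F j).2.1 isOpen_univ θ1.contDiffOn fun _ => mem_univ _
    simp only [G]
    rw [e, g.Γ_comm, e, ← mul_assoc]
    refine mul_le_of_le_one_left (g.Γ_nonneg _ z) ?_
    exact abs_le_one_iff_mul_self_le_one.1 (θ2 _)
  have G4 := hk_E_self (fun j => (h.gen (F j)).1) hu F2
  have G5 : ∀ ε : ℝ, 0 < ε → θL.compLp θ0 u ∈ Φ.dom ∧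
      Φ.E (θL.compLp θ0 u) (θL.compLp θ0 u) ≤ Φ.E u u + ε := fun ε hε => by
    refine S.toResolvent.lsc ?_ G2
    filter_upwards [G4.eventually (eventually_lt_nhds (lt_add_of_pos_right _ hε))] with j hj
    exact ⟨(h.gen _).1, (G3 j).trans hj.le⟩
  exact ⟨(G5 1 one_pos).1, le_of_forall_pos_le_add fun ε hε => (G5 ε hε).2⟩

end Crest.Agent.R247
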