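import Crest.Agent.R247.HK.Form
import Crest.Agent.R247.Reg

/-! # Row 247, block HK: weak gradients and smooth representatives (helper56) -/

set_option autoImplicit false
set_option linter.unusedSectionVars false
set_option linter.unusedVariables false
open MeasureTheory Filter Set Metric Matrix
open scoped ENNReal NNReal Topology ContDiff InnerProductSpace
open Crest.GeometryTopology.CoordMetric Crest.Agent.R242

noncomputable section
namespace Crest.Agent.R247
universe u

variable {n : ℕ} {M : Type u} [MetricSpace M] [MeasurableSpace M] [BorelSpace M] [ProperSpace M]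
  (g : Geo n M)

/-- `√gᵢᵢ`. -/
def Geo.sq (x : M) (i : Fin n) (y : E n) : ℝ := Real.sqrt (g.gm x y i i)

theorem Geo.sq_pos (x : M) (i : Fin n) {y : E n} (hy : y ∈ (g.ch x).target) : 0 < g.sq x i y :=
  Real.sqrt_pos.2 ((g.gm_riem x).posDef y hy).diag_pos

theorem Geo.sq_sm (x : M) (i : Fin n) : ContDiffOn ℝ ∞ (g.sq x i) (g.ch x).target :=
  ((g.gm_riem x).contDiffOn i i).sqrt fun y hy => ((g.gm_riem x).posDef y hy).diag_pos.ne'

/-- Normalised partial derivative in a chart. -/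
def Geo.Dg (x : M) (i : Fin n) (f : M → ℝ) : M → ℝ :=
  g.ext x fun y => (g.sq x i y)⁻¹ * pderiv i (fun z => f ((g.ch x).symm z)) y

theorem Geo.Dg_sq_le (x : M) (i : Fin n) {f : M → ℝ} (hf : g.S f) (z : M) :
    g.Dg x i f z ^ 2 ≤ g.Γ f f z := by
  by_cases hz : z ∈ (g.ch x).source
  · have hy := (g.ch x).map_source hz
    rw [← (g.ch x).left_inv hz, Geo.Dg, g.ext_symm x _ hy, g.Γ_ch hf hf x _ hy, mul_pow, inv_pow,
      Geo.sq, Real.sq_sqrt ((g.gm_riem x).posDef _ hy).diag_pos.le,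
      inv_mul_le_iff₀ ((g.gm_riem x).posDef _ hy).diag_pos]
    exact hk_cs ((g.gm_riem x).posDef _ hy) (fun i => pderiv i (fun z => f ((g.ch x).symm z)) _) i
  · rw [Geo.Dg, Geo.ext, indicator_of_notMem hz, zero_pow two_ne_zero]
    exact g.Γ_nonneg f z

theorem Geo.Dg_meas (x : M) (i : Fin n) {f : M → ℝ} (hf : g.S f) :
    AEStronglyMeasurable (g.Dg x i f) g.m := by
  refine (aestronglyMeasurable_indicator_iff (g.ch x).open_source.measurableSet).2
    (ContinuousOn.aestronglyMeasurable ?_ (g.ch x).open_source.measurableSet)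
  exact (((g.sq_sm x i).inv fun y hy => (g.sq_pos x i hy).ne').mul
    (hk_pd_smooth (g.ch x).open_target (g.S_ch hf x) i)).continuousOn.comp (g.ch x).continuousOn
      (g.ch x).mapsTo

theorem Geo.int_Γ (f : g.D0) {w : M → ℝ} (hw : g.S w) : Integrable (g.Γ f w) g.m :=
  g.int_cs (g.S_cont (g.S_Γ f.2.1 hw)) (g.cs_Γ f.2.2 _)

theorem Geo.Dg_memLp (x : M) (i : Fin n) (f : g.D0) : MemLp (g.Dg x i f) 2 g.m :=
  (memLp_two_iff_integrable_sq (g.Dg_meas x i f.2.1)).2 ((g.int_Γ f f.2.1).mono'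
    ((g.Dg_meas x i f.2.1).pow 2) (Eventually.of_forall fun z => by
      rw [Real.norm_of_nonneg (sq_nonneg _)]; exact g.Dg_sq_le x i f.2.1 z))

theorem Geo.Dg_sub (x : M) (i : Fin n) {f f' : M → ℝ} (hf : g.S f) (hf' : g.S f') (z : M) :
    g.Dg x i (f - f') z = g.Dg x i f z - g.Dg x i f' z := by
  by_cases hz : z ∈ (g.ch x).source
  · have hy := (g.ch x).open_target.mem_nhds ((g.ch x).map_source hz)
    simp only [Geo.Dg, Geo.ext, indicator_of_mem hz, pderiv, Pi.sub_apply]
    rw [fderiv_fun_sub (((g.S_ch hf x).contDiffAt hy).differentiableAt (by simp))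
      (((g.S_ch hf' x).contDiffAt hy).differentiableAt (by simp)), _root_.sub_apply,
      mul_sub]
  · simp only [Geo.Dg, Geo.ext, indicator_of_notMem hz, sub_zero]

theorem Geo.Γ_ext (x : M) {f : M → ℝ} (hf : g.S f) {φ : E n → ℝ} (h : Tt (g.ch x).target φ) (z : M) :
    g.Γ f (g.ext x φ) z = ∑ i, ∑ j, g.Dg x i f z *
      g.ext x (fun y => g.sq x i y * ((g.gm x y)⁻¹ i j * pderiv j φ y)) z := by
  by_cases hz : z ∈ (g.ch x).source
  · have hy := (g.ch x).map_source hz
    rw [← (g.ch x).left_inv hz, g.Γ_ch hf (g.ext_S x h) x _ hy]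
    refine Finset.sum_congr rfl fun i _ => Finset.sum_congr rfl fun j _ => ?_
    have e : (fun y => g.ext x φ ((g.ch x).symm y)) =ᶠ[𝓝 (g.ch x z)] φ := by
      filter_upwards [(g.ch x).open_target.mem_nhds hy] with y hy using g.ext_symm x φ hy
    have := (g.sq_pos x i hy).ne'
    rw [Geo.Dg, g.ext_symm x _ hy, g.ext_symm x _ hy, pderiv, pderiv, pderiv, e.fderiv_eq]
    field_simp
  · rw [Raw.Γ, (g.grad_eq_zero fun h' => hz ((g.ext_supp x h).2 h')).1]
    simp only [Geo.ext, indicator_of_notMem hz, mul_zero, Finset.sum_const_zero, dotProduct_zero]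

variable {g} {Φ : ClosedForm (Lp ℝ 2 g.m)}

theorem Geo.Fr.grad (h : g.Fr Φ) (x : M) {u : Lp ℝ 2 g.m} (hu : u ∈ Φ.dom) :
    ∃ w : Fin n → Lp ℝ 2 g.m,
      (∀ i φ, Tt (g.ch x).target φ → ∫ y, u ((g.ch x).symm y) * pderiv i φ y =
        -∫ y, g.sq x i y * w i ((g.ch x).symm y) * φ y) ∧
      ∀ φ (hφ : Tt (g.ch x).target φ), Φ.E u (g.io (g.extD x hφ)) =
        ∫ y, ∑ i, ∑ j, (g.wt x y • (g.gm x y)⁻¹) i j * (g.sq x i y * w i ((g.ch x).symm y)) *
          pderiv j φ y := by
  have hΩ := (g.ch x).open_target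
  obtain ⟨F, F1, F2⟩ := h.core u hu
  have hw : ∀ i, ∃ w, Tendsto (fun j => (g.Dg_memLp x i (F j)).toLp) atTop (𝓝 w) := fun i => by
    refine hk_cauchy (fun j => (h.gen (F j)).1) hu F2 fun j k => Real.le_sqrt_of_sq_le ?_
    rw [← map_sub, h.E_io, ← MemLp.toLp_sub, hk_norm (MemLp.coeFn_toLp _)]
    refine integral_mono_of_nonneg (Eventually.of_forall fun z => sq_nonneg _)
      (g.int_Γ _ (F j - F k).2.1) (Eventually.of_forall fun z => ?_)
    have := g.Dg_sq_le x i (F j - F k).2.1 z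
    rwa [Submodule.coe_sub, g.Dg_sub x i (F j).2.1 (F k).2.1] at this
  choose w hw using hw
  refine ⟨w, fun i φ hφ => ?_, fun φ hφ => ?_⟩
  · have h1 := hφ.mul hΩ (g.sq_sm x i)
    have h2 := F1.inner (𝕜 := ℝ) (tendsto_const_nhds
      (x := g.io (g.extD x ((hφ.pd i).mul hΩ (g.inv_wt_sm x)))))
    have h3 := ((hw i).inner (𝕜 := ℝ) (tendsto_const_nhds
      (x := g.io (g.extD x (h1.mul hΩ (g.inv_wt_sm x)))))).neg
    rw [g.inner_ext' x _ (hφ.pd i)] at h2
    rw [g.inner_ext' x _ h1] at h3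
    refine (tendsto_nhds_unique h2 (h3.congr fun j => ?_)).trans ?_
    · rw [hk_inner (g.io_ae _) (g.io_ae _), hk_inner (MemLp.coeFn_toLp _) (g.io_ae _)]
      simp only [Geo.extD]
      rw [g.ext_int' x (g.Dg_meas x i (F j).2.1) h1,
        g.ext_int' x (g.S_cont (F j).2.1).aestronglyMeasurable (hφ.pd i),
        hφ.ibp hΩ (g.S_ch (F j).2.1 x)]
      refine congrArg _ (integral_congr_ae (Eventually.of_forall fun y => ?_))
      by_cases hy : y ∈ (g.ch x).target
      · have := (g.sq_pos x i hy).ne'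
        simp only [Geo.Dg, g.ext_symm x _ hy]
        field_simp
      · simp only [hφ.zero hy, mul_zero]
    · exact congrArg _ (integral_congr_ae (Eventually.of_forall fun y => by ring))
  · have h1 : ∀ i j, Tt (g.ch x).target fun y => g.sq x i y * ((g.gm x y)⁻¹ i j * pderiv j φ y) :=
      fun i j => ((hφ.pd j).mul hΩ (g.inv_sm x i j)).mul hΩ (g.sq_sm x i)
    have h2 := hk_E_left (fun j => (h.gen (F j)).1) hu (h.gen (g.extD x hφ)).1 F2
    have h3 := tendsto_finsetSum Finset.univ fun i _ => tendsto_finsetSum Finset.univ fun j _ =>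
      (hw i).inner (𝕜 := ℝ) (tendsto_const_nhds (x := g.io (g.extD x (h1 i j))))
    have hi : ∀ i j, Integrable fun y => w i ((g.ch x).symm y) *
        (g.wt x y * (g.sq x i y * ((g.gm x y)⁻¹ i j * pderiv j φ y))) := fun i j =>
      g.ch_integrable x (Lp.memLp _) ((h1 i j).mul hΩ (g.wt_sm x))
    refine (tendsto_nhds_unique h2 (h3.congr fun k => ?_)).trans ?_
    · have hi' : ∀ i j, Integrable (fun z => g.Dg x i (F k) z *
          g.ext x (fun y => g.sq x i y * ((g.gm x y)⁻¹ i j * pderiv j φ y)) z) g.m := fun i j =>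
        (g.Dg_memLp x i (F k)).integrable_mul
          (g.memLp_cs (g.S_cont (g.ext_S x (h1 i j))) (g.ext_supp x (h1 i j)).1)
      rw [h.E_io]
      simp only [Geo.extD, g.Γ_ext x (F k).2.1 hφ]
      rw [integral_finsetSum _ fun i _ => integrable_finsetSum _ fun j _ => hi' i j]
      refine Finset.sum_congr rfl fun i _ => ?_
      rw [integral_finsetSum _ fun j _ => hi' i j]
      exact Finset.sum_congr rfl fun j _ => hk_inner (MemLp.coeFn_toLp _) (g.io_ae _)
    · simp only [g.inner_ext]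
      simp only [← integral_finsetSum _ fun j _ => hi _ j]
      rw [← integral_finsetSum _ fun i _ => integrable_finsetSum _ fun j _ => hi i j]
      refine integral_congr_ae (Eventually.of_forall fun y => ?_)
      refine Finset.sum_congr rfl fun i _ => Finset.sum_congr rfl fun j _ => ?_
      simp only [Matrix.smul_apply, smul_eq_mul]
      ring

theorem Geo.Fr.reg_ch (h : g.Fr Φ) {U : ℕ → Lp ℝ 2 g.m} (hU : ∀ k, Φ.IsGen (U k) (U (k + 1)))
    (x : M) : ∃ v : E n → ℝ, ContDiffOn ℝ ∞ v (g.ch x).target ∧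
      ∀ᵐ y, y ∈ (g.ch x).target → U 0 ((g.ch x).symm y) = v y := by
  choose w hw1 hw2 using fun k => h.grad x (hU k).1
  refine reg_smooth (g.ch x).open_target (a := fun y => g.wt x y • (g.gm x y)⁻¹) (wt := g.wt x)
    (fun i j => (g.wt_sm x).mul (g.inv_sm x i j))
    (fun y hy => ((g.gm_riem x).posDef y hy).inv.smul (g.wt_pos x hy)) (g.wt_sm x)
    (fun k y => U k ((g.ch x).symm y)) (fun k i y => g.sq x i y * w k i ((g.ch x).symm y))
    (fun k K hK hc => g.ch_memLp x (Lp.memLp _) hK hc) (fun k i K hK hc => ?_)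
    (fun k i φ h1 h2 h3 => hw1 k i φ ⟨h1, h2, h3⟩) (fun k φ h1 h2 h3 => ?_)
  · have h1 := g.ch_memLp x (Lp.memLp (w k i)) hK hc
    have h2 := (g.sq_sm x i).continuousOn.mono hK
    obtain ⟨C, hC⟩ := hc.exists_bound_of_continuousOn h2
    refine h1.of_le_mul (c := C) ((h2.aestronglyMeasurable hc.measurableSet).mul h1.1) ?_
    filter_upwards [ae_restrict_mem hc.measurableSet] with y hy
    rw [norm_mul]
    exact mul_le_mul_of_nonneg_right (hC y hy) (norm_nonneg _)
  · rw [← hw2 k φ ⟨h1, h2, h3⟩, (hU k).2 _ (h.gen _).1, g.inner_ext]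
    exact congrArg _ (integral_congr_ae (Eventually.of_forall fun y => by ring))

theorem Geo.Fr.reg (h : g.Fr Φ) {U : ℕ → Lp ℝ 2 g.m} (hU : ∀ k, Φ.IsGen (U k) (U (k + 1))) :
    ∃ v : M → ℝ, g.S v ∧ U 0 =ᵐ[g.m] v := by
  have := g.open_pos
  choose v hv1 hv2 using h.reg_ch hU
  have h1 : ∀ x, ∀ᵐ z ∂g.m, z ∈ (g.ch x).source → U 0 z = v x (g.ch x z) := fun x => by
    refine g.ch_ae' x ?_
    filter_upwards [hv2 x] with y hy hy'
    rw [hy hy', (g.ch x).right_inv hy']
  have h2 : ∀ x, ContinuousOn (fun z => v x (g.ch x z)) (g.ch x).source := fun x =>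
    (hv1 x).continuousOn.comp (g.ch x).continuousOn (g.ch x).mapsTo
  have h3 : ∀ x, ∀ z ∈ (g.ch x).source, v z (g.ch z z) = v x (g.ch x z) := fun x z hz => by
    have hO := (g.ch z).open_source.inter (g.ch x).open_source
    refine Measure.eqOn_open_of_ae_eq (μ := g.m) ?_ hO ((h2 z).mono inter_subset_left)
      ((h2 x).mono inter_subset_right) ⟨g.mem_ch z, hz⟩
    filter_upwards [ae_restrict_mem hO.measurableSet, ae_restrict_of_ae (h1 z),
      ae_restrict_of_ae (h1 x)] with y hy e1 e2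
    rw [← e1 hy.1, ← e2 hy.2]
  have h4 : ∀ x, ∀ y ∈ (g.ch x).target, v ((g.ch x).symm y) (g.ch ((g.ch x).symm y)
      ((g.ch x).symm y)) = v x y := fun x y hy => by
    rw [h3 x _ ((g.ch x).map_target hy), (g.ch x).right_inv hy]
  refine ⟨fun z => v z (g.ch z z), g.S_of_ch fun x => (hv1 x).congr (h4 x),
    g.ae_of_ch (p := fun z => U 0 z = v z (g.ch z z)) fun x => ?_⟩
  filter_upwards [hv2 x] with y hy hy'
  rw [h4 x y hy', hy hy']

end Crest.Agent.R247
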