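import Crest.Agent.R247.HK.Grad

/-! # Row 247, block HK: the smooth heat flow and the evaluation functionals (helper56) -/

set_option autoImplicit false
set_option linter.unusedSectionVars false
set_option linter.unusedVariables false
open MeasureTheory Filter Set Metric Matrix
open scoped ENNReal NNReal Topology ContDiff InnerProductSpace
open Crest.GeometryTopology.CoordMetric Crest.Agent.R242

noncomputable section
namespace Crest.Agent.R247
universe u

variable {n : ℕ} {M : Type u} [MetricSpace M] [MeasurableSpace M] [BorelSpace M] [ProperSpace M]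
  {g : Geo n M}

theorem Geo.energy_cut {v χ : M → ℝ} (hv : g.S v) (h1 : MemLp v 2 g.m) (hχ : g.S χ)
    (hc : HasCompactSupport χ) {C R : ℝ} (hR : 0 < R) (hΓ : ∀ y, g.Γ χ χ y ≤ C / R ^ 2) :
    ∫ y, (1 - R⁻¹) * (χ y * χ y * g.Γ v v y) ∂g.m ≤
      -∫ y, χ y * χ y * v y * g.Δ v y ∂g.m + C * R⁻¹ * ∫ y, v y ^ 2 ∂g.m := by
  have hχ2 := g.S_mul hχ hχ
  have hc2 : HasCompactSupport fun y => χ y * χ y := hc.mul_right
  have i1 : Integrable (fun y => χ y * χ y * g.Γ v v y) g.m :=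
    g.int_cs (g.S_cont (g.S_mul hχ2 (g.S_Γ hv hv))) hc2.mul_right
  have i2 : Integrable (fun y => v y * g.Γ v (fun y => χ y * χ y) y) g.m := by
    simp only [g.Γ_comm v]
    exact g.int_cs (g.S_cont (g.S_mul hv (g.S_Γ hχ2 hv))) (g.cs_Γ hc2 v).mul_left
  have i3 : Integrable (fun y => v y ^ 2) g.m := h1.integrable_sq
  have key : ∫ y, -(v y * g.Γ v (fun y => χ y * χ y) y) ∂g.m ≤
      ∫ y, (R⁻¹ * (χ y * χ y * g.Γ v v y) + C * R⁻¹ * v y ^ 2) ∂g.m := by
    refine integral_mono i2.neg ((i1.const_mul _).add (i3.const_mul _)) fun y => ?_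
    have a1 := g.abs_Γ_le χ v y
    have a2 := Real.sq_sqrt (g.Γ_nonneg χ y)
    have a3 := Real.sq_sqrt (g.Γ_nonneg v y)
    have a4 : R * (v y ^ 2 * g.Γ χ χ y) ≤ C * R⁻¹ * v y ^ 2 := by
      have := mul_le_mul_of_nonneg_left (hΓ y) (mul_nonneg hR.le (sq_nonneg (v y)))
      calc _ = R * v y ^ 2 * g.Γ χ χ y := by ring
        _ ≤ _ := this
        _ = _ := by field_simp
    simp only
    rw [g.Γ_comm v, g.Γ_mul_left hχ hχ]
    generalize Real.sqrt (g.Γ χ χ y) = a at a1 a2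
    generalize Real.sqrt (g.Γ v v y) = b at a1 a3
    have a5 : -(v y * χ y * g.Γ χ v y) ≤ |v y| * |χ y| * (a * b) := by
      refine (neg_le_abs _).trans ?_
      rw [abs_mul, abs_mul]
      exact mul_le_mul_of_nonneg_left a1 (by positivity)
    have a6 : 0 ≤ R⁻¹ * (|χ y| * b - R * (|v y| * a)) ^ 2 := by positivity
    have a7 : R⁻¹ * (|χ y| * b - R * (|v y| * a)) ^ 2 = R⁻¹ * (|χ y| ^ 2 * b ^ 2) -
        2 * (|v y| * |χ y| * (a * b)) + R * (|v y| ^ 2 * a ^ 2) := by field_simp; ring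
    rw [a7, sq_abs, sq_abs, a2, a3, pow_two (χ y)] at a6
    linarith
  rw [integral_add (i1.const_mul _) (i3.const_mul _), integral_const_mul, integral_const_mul,
    integral_neg] at key
  rw [g.ibp_cut hχ2 hc2 hv hv, integral_const_mul]
  linarith

theorem Geo.energy {v : M → ℝ} (hv : g.S v) (h1 : MemLp v 2 g.m) (h2 : MemLp (g.Δ v) 2 g.m) :
    ∫⁻ y, ENNReal.ofReal (g.Γ v v y) ∂g.m ≤ ENNReal.ofReal (-∫ y, v y * g.Δ v y ∂g.m) := by
  rcases isEmpty_or_nonempty M with hM | ⟨⟨o⟩⟩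
  · simp
  obtain ⟨C, hC⟩ := g.cut1 o
  choose χ c1 c2 c3 c4 c5 using fun k : ℕ => hC ((k : ℝ) + 1) (by simp)
  have t0 : Tendsto (fun k : ℕ => ((k : ℝ) + 1)⁻¹) atTop (𝓝 0) :=
    tendsto_inv_atTop_zero.comp (tendsto_atTop_add_const_right _ 1 tendsto_natCast_atTop_atTop)
  have t1 : ∀ y, Tendsto (fun k => χ k y) atTop (𝓝 1) := fun y => by
    refine tendsto_const_nhds.congr' ?_
    filter_upwards [(tendsto_atTop_add_const_right _ 1 tendsto_natCast_atTop_atTop).eventually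
      (eventually_ge_atTop (dist y o))] with k hk using (c4 k y hk).symm
  have cc : ∀ k, Continuous (χ k) := fun k => g.S_cont (c1 k)
  have cΓ := g.S_cont (g.S_Γ hv hv)
  have t2 : Tendsto (fun k => ∫ y, χ k y * χ k y * v y * g.Δ v y ∂g.m) atTop
      (𝓝 (∫ y, v y * g.Δ v y ∂g.m)) := by
    refine tendsto_integral_of_dominated_convergence (fun y => ‖v y * g.Δ v y‖)
      (fun k => ((((cc k).mul (cc k)).mul (g.S_cont hv)).mul
        (g.S_cont (g.S_Δ hv))).aestronglyMeasurable)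
      (h1.integrable_mul h2).norm (fun k => Eventually.of_forall fun y => ?_)
      (Eventually.of_forall fun y => ?_)
    · rw [mul_assoc, norm_mul]
      refine mul_le_of_le_one_left (norm_nonneg _) ?_
      rw [Real.norm_of_nonneg (mul_self_nonneg _)]
      exact mul_le_one₀ (c3 k y).2 (c3 k y).1 (c3 k y).2
    · simpa using (((t1 y).mul (t1 y)).mul_const (v y)).mul_const (g.Δ v y)
  have t3 := t2.neg.add ((t0.const_mul C).mul_const (∫ y, v y ^ 2 ∂g.m))
  rw [mul_zero, zero_mul, add_zero] at t3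
  have t4 : ∀ y, Tendsto (fun k : ℕ => ENNReal.ofReal
      ((1 - ((k : ℝ) + 1)⁻¹) * (χ k y * χ k y * g.Γ v v y))) atTop
      (𝓝 (ENNReal.ofReal (g.Γ v v y))) := fun y => ENNReal.tendsto_ofReal (by
    simpa using (t0.const_sub 1).mul (((t1 y).mul (t1 y)).mul_const (g.Γ v v y)))
  have cF : ∀ k : ℕ, Continuous fun y => (1 - ((k : ℝ) + 1)⁻¹) * (χ k y * χ k y * g.Γ v v y) :=
    fun k => continuous_const.mul (((cc k).mul (cc k)).mul cΓ)
  simp only [← fun y => (t4 y).liminf_eq]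
  refine (lintegral_liminf_le' fun k => (cF k).measurable.ennreal_ofReal.aemeasurable).trans ?_
  rw [← (ENNReal.tendsto_ofReal t3).liminf_eq]
  refine liminf_le_liminf (Eventually.of_forall fun k => ?_)
  rw [← ofReal_integral_eq_lintegral_ofReal (g.int_cs (cF k) ((c2 k).mul_right.mul_right.mul_left))
    (Eventually.of_forall fun y => mul_nonneg (sub_nonneg.2 (inv_le_one_of_one_le₀ (by simp)))
      (mul_nonneg (mul_self_nonneg _) (g.Γ_nonneg v y)))]
  exact ENNReal.ofReal_le_ofReal (g.energy_cut hv h1 (c1 k) (c2 k) (by positivity) (c5 k))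

theorem Geo.tendsto_avg {v : M → ℝ} (hv : Continuous v) (x : M) :
    Tendsto (fun r => (g.m.real (closedBall x r))⁻¹ * ∫ z in closedBall x r, v z ∂g.m) (𝓝[>] 0)
      (𝓝 (v x)) := by
  have := g.fin_cpt
  have := g.open_pos
  refine Metric.tendsto_nhds.2 fun ε hε => ?_
  obtain ⟨δ, hδ, h⟩ := Metric.continuousAt_iff.1 (hv.continuousAt (x := x)) (ε / 2) (half_pos hε)
  filter_upwards [Ioo_mem_nhdsGT hδ] with r hr
  have h1 : g.m (closedBall x r) < ⊤ := (isCompact_closedBall x r).measure_lt_top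
  have h2 : 0 < g.m.real (closedBall x r) :=
    ENNReal.toReal_pos (measure_closedBall_pos g.m x hr.1).ne' h1.ne
  have h3 := norm_setIntegral_le_of_norm_le_const (f := fun z => v z - v x) h1
    fun z hz => (h (lt_of_le_of_lt (mem_closedBall.1 hz) hr.2)).le
  rw [integral_sub (hv.continuousOn.integrableOn_compact (isCompact_closedBall x r))
    (integrableOn_const h1.ne), setIntegral_const, smul_eq_mul] at h3
  rw [dist_eq_norm, ← inv_mul_cancel_left₀ h2.ne' (v x), ← mul_sub, norm_mul,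
    Real.norm_of_nonneg (inv_pos.2 h2).le, inv_mul_lt_iff₀ h2]
  nlinarith

variable {Φ : ClosedForm (Lp ℝ 2 g.m)}

theorem Geo.Fr.lap_eq (h : g.Fr Φ) {u a : Lp ℝ 2 g.m} (hg : Φ.IsGen u a) {v w : M → ℝ} (hv : g.S v)
    (hw : Continuous w) (h1 : u =ᵐ[g.m] v) (h2 : a =ᵐ[g.m] w) : g.Δ v = w := by
  have key : ∀ χ, g.S χ → HasCompactSupport χ →
      ∫ y, w y * χ y ∂g.m = ∫ y, g.Δ v y * χ y ∂g.m := fun χ c1 c2 => by
    have := hg.inner_comm (h.gen ⟨χ, c1, c2⟩)
    rw [hk_inner h2 (g.io_ae _), hk_inner h1 (g.io_ae _)] at this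
    exact this.trans (g.int_Δ_comm c1 c2 hv)
  have hΔ := g.S_cont (g.S_Δ hv)
  exact funext fun x => le_antisymm (g.le_of_test hΔ hw (fun χ c1 c2 _ => (key χ c1 c2).ge) x)
    (g.le_of_test hw hΔ (fun χ c1 c2 _ => (key χ c1 c2).le) x)

theorem Geo.Fr.energy (h : g.Fr Φ) {u a : Lp ℝ 2 g.m} (hg : Φ.IsGen u a) {v : M → ℝ} (hv : g.S v)
    (h1 : u =ᵐ[g.m] v) (h2 : a =ᵐ[g.m] g.Δ v) :
    ∫⁻ y, ENNReal.ofReal (g.Γ v v y) ∂g.m ≤ ENNReal.ofReal (Φ.E u u) := by
  rw [hg.2 u hg.1, real_inner_comm, hk_inner h1 h2]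
  exact g.energy hv ((Lp.memLp u).ae_eq h1) ((Lp.memLp a).ae_eq h2)

/-- The evaluation functionals of the heat semigroup. -/
theorem Geo.Fr.exists_ev (h : g.Fr Φ) (S : SG Φ) : ∃ k : ℝ → M → Lp ℝ 2 g.m, ∀ t, 0 < t → ∀ f,
    g.S (fun x => ⟪k t x, f⟫_ℝ) ∧ S.heat t f =ᵐ[g.m] fun x => ⟪k t x, f⟫_ℝ := by
  have := g.fin_cpt
  have key : ∀ t, ∃ k : M → Lp ℝ 2 g.m, 0 < t → ∀ f,
      g.S (fun x => ⟪k x, f⟫_ℝ) ∧ S.heat t f =ᵐ[g.m] fun x => ⟪k x, f⟫_ℝ := fun t => by
    by_cases ht : 0 < t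
    swap
    · exact ⟨0, fun h => absurd h ht⟩
    have h1 : ∀ f, ∃ v, g.S v ∧ S.heat t f =ᵐ[g.m] v := fun f => by
      obtain ⟨U, U0, hU⟩ := hk_chain S f ht
      exact U0 ▸ h.reg hU
    choose T T1 T2 using h1
    have h2 : ∀ x, ∃ k : Lp ℝ 2 g.m, ∀ f, ⟪k, f⟫_ℝ = T f x := fun x =>
      hk_weak_lim (l := 𝓝[>] (0 : ℝ)) (fun r => (g.m.real (closedBall x r))⁻¹ • S.heat t
        (indicatorConstLp 2 measurableSet_closedBall (isCompact_closedBall x r).measure_lt_top.ne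
          (1 : ℝ))) _ fun f => by
        refine (g.tendsto_avg (g.S_cont (T1 f)) x).congr fun r => ?_
        rw [real_inner_smul_left, S.heat_symm t _ _ ht.le, L2.inner_indicatorConstLp_one,
          integral_congr_ae (ae_restrict_of_ae (T2 f))]
    choose k hk using h2
    exact ⟨k, fun _ f => by simpa only [hk] using ⟨T1 f, T2 f⟩⟩
  choose k hk using key
  exact ⟨k, hk⟩

end Crest.Agent.R247
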